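import Vale.Agent.P235A.Base

namespace Vale.Agent.P235A

open MeasureTheory

universe u

theorem ind_image {V : Type u} {s : Set V} (S : Set s) (x : s) :
    ind (Subtype.val '' S) (x : V) = ind S x := by
  by_cases h : x ∈ S
  · rw [ind_mem h, ind_mem (Set.mem_image_of_mem _ h)]
  · rw [ind_not_mem h, ind_not_mem]
    rintro ⟨y, hy, hyx⟩
    exact h (Subtype.ext hyx ▸ hy)

theorem CutSum.extend {V : Type u} [Fintype V] (s : Set V) [Fintype s] {D : s → s → ℝ}
    (hD : CutSum s D) : ∃ D' : V → V → ℝ, CutSum V D' ∧ ∀ x y : s, D' x y = D x y := by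
  obtain ⟨ι, _, w, S, hw, hD⟩ := hD
  refine ⟨fun x y => ∑ i, w i * |ind (Subtype.val '' S i) x - ind (Subtype.val '' S i) y|,
    ⟨ι, inferInstance, w, fun i => Subtype.val '' S i, hw, fun _ _ => rfl⟩, ?_⟩
  intro x y
  rw [hD]
  refine Finset.sum_congr rfl fun i _ => ?_
  rw [ind_image, ind_image]

theorem IsL1.nonneg {X : Type u} {E : X → X → ℝ} (hE : IsL1 X E) (x y : X) : 0 ≤ E x y := by
  obtain ⟨N, g, hg⟩ := hE
  rw [hg]
  exact Finset.sum_nonneg fun i _ => abs_nonneg _

theorem resLen_pos {V : Type u} (G : SimpleGraph V) (s : Set V) (ℓ : Sym2 V → ℝ)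
    (hℓ : ∀ e ∈ G.edgeSet, 0 < ℓ e) : ∀ e ∈ (G.induce s).edgeSet, 0 < resLen s ℓ e := by
  intro e
  induction e using Sym2.ind with
  | _ x y =>
    intro he
    apply hℓ
    rw [Sym2.map_mk]
    rw [SimpleGraph.mem_edgeSet] at he ⊢
    exact he

theorem apex (hCUT : S_CUT.{u}) (hREAL : S_REAL.{u}) (hCONE : S_CONE.{u}) (hMET : S_METRIC.{u})
    (hDEL : S_DEL.{u}) : S_APEX.{u} := by
  classical
  intro V _ G A c hc hH ℓ hℓ
  obtain ⟨hw, hnn, hself, hsymm, htri, hinf⟩ := hMET V G ℓ hℓ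
  obtain ⟨hd1, hd2⟩ := hDEL V G ℓ {x | x ∉ A} hℓ
  obtain ⟨Ω, _, μ, f, hf⟩ := hH (resLen {x | x ∉ A} ℓ) (resLen_pos G _ ℓ hℓ)
  have hD0 : CutSum {x : V | x ∉ A} (fun x y => ‖f x - f y‖) := hCUT _ Ω _ μ f
  set M : ℝ := ∑ x : {x : V | x ∉ A}, ∑ y : {x : V | x ∉ A}, ‖f x - f y‖ with hM
  have hM0 : 0 ≤ M := Finset.sum_nonneg fun _ _ => Finset.sum_nonneg fun _ _ => norm_nonneg _
  have hMle : ∀ x y : {x : V | x ∉ A}, ‖f x - f y‖ ≤ M := by
    intro x y
    calc ‖f x - f y‖ ≤ ∑ y : {x : V | x ∉ A}, ‖f x - f y‖ :=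
          Finset.single_le_sum (f := fun y : {x : V | x ∉ A} => ‖f x - f y‖)
            (fun _ _ => norm_nonneg _) (Finset.mem_univ y)
      _ ≤ M := Finset.single_le_sum
            (f := fun x : {x : V | x ∉ A} => ∑ y : {x : V | x ∉ A}, ‖f x - f y‖)
            (fun _ _ => Finset.sum_nonneg fun _ _ => norm_nonneg _) (Finset.mem_univ x)
  set ρ : V → ℝ := fun x => if x ∈ A then 0 else
    if h : (A.filter (fun a => G.Reachable x a)).Nonempty then
      (A.filter (fun a => G.Reachable x a)).inf' h (fun a => wdist G ℓ x a) else M with hρ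
  have hρA : ∀ x ∈ A, ρ x = 0 := fun x hx => by simp only [hρ, if_pos hx]
  have hρle : ∀ x, x ∉ A → ∀ a ∈ A, G.Reachable x a → ρ x ≤ wdist G ℓ x a := by
    intro x hx a ha hxa
    have hne : (A.filter (fun a => G.Reachable x a)).Nonempty :=
      ⟨a, Finset.mem_filter.2 ⟨ha, hxa⟩⟩
    simp only [hρ, if_neg hx, dif_pos hne]
    exact Finset.inf'_le _ (Finset.mem_filter.2 ⟨ha, hxa⟩)
  have hρex : ∀ x, x ∉ A → (∃ a ∈ A, G.Reachable x a ∧ ρ x = wdist G ℓ x a) ∨
      ((∀ a ∈ A, ¬ G.Reachable x a) ∧ ρ x = M) := by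
    intro x hx
    by_cases hne : (A.filter (fun a => G.Reachable x a)).Nonempty
    · left
      obtain ⟨a, ha, hae⟩ := Finset.exists_mem_eq_inf' hne (fun a => wdist G ℓ x a)
      rw [Finset.mem_filter] at ha
      refine ⟨a, ha.1, ha.2, ?_⟩
      simp only [hρ, if_neg hx, dif_pos hne]
      exact hae
    · right
      refine ⟨fun a ha hxa => hne ⟨a, Finset.mem_filter.2 ⟨ha, hxa⟩⟩, ?_⟩
      simp only [hρ, if_neg hx, dif_neg hne]
  have hρ0 : ∀ x, 0 ≤ ρ x := by
    intro x
    by_cases hx : x ∈ A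
    · rw [hρA x hx]
    · rcases hρex x hx with ⟨a, _, _, h⟩ | ⟨_, h⟩
      · rw [h]; exact hnn _ _
      · rw [h]; exact hM0
  have hρlip1 : ∀ x y, x ∉ A → y ∉ A → G.Reachable x y → ρ x ≤ ρ y + wdist G ℓ x y := by
    intro x y hx hy hxy
    rcases hρex y hy with ⟨a, ha, hya, h⟩ | ⟨hno, h⟩
    · have h1 := hρle x hx a ha (hxy.trans hya)
      have h2 := htri x y a hxy hya
      linarith
    · rcases hρex x hx with ⟨a, ha, hxa, _⟩ | ⟨_, h'⟩
      · exact absurd (hxy.symm.trans hxa) (hno a ha)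
      · rw [h, h']
        have := hnn x y
        linarith
  -- the components of `G - A`
  have hfin : Finite (G.induce {x : V | x ∉ A}).ConnectedComponent := inferInstance
  let _ : Fintype (G.induce {x : V | x ∉ A}).ConnectedComponent := Fintype.ofFinite _
  set W : ℝ := ∑ x, ρ x with hW
  have hWle : ∀ x, ρ x ≤ W := fun x =>
    Finset.single_le_sum (f := ρ) (fun _ _ => hρ0 _) (Finset.mem_univ x)
  have hW0 : 0 ≤ W := Finset.sum_nonneg fun _ _ => hρ0 _
  have hD1 := CutSum.of_fun (X := {x : V | x ∉ A})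
    (fun x => (G.induce {x : V | x ∉ A}).connectedComponentMk x) W hW0
  obtain ⟨D, hDc, hDe⟩ := (hD0.add hD1).extend
  have hDreach : ∀ x y : {x : V | x ∉ A}, (G.induce {x : V | x ∉ A}).Reachable x y →
      D x y = ‖f x - f y‖ := by
    intro x y hxy
    rw [hDe]
    have : (G.induce {x : V | x ∉ A}).connectedComponentMk x =
        (G.induce {x : V | x ∉ A}).connectedComponentMk y :=
      SimpleGraph.ConnectedComponent.eq.2 hxy
    simp only [if_pos this, add_zero]
  have hDnot : ∀ x y : {x : V | x ∉ A}, ¬ (G.induce {x : V | x ∉ A}).Reachable x y →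
      ρ x + ρ y ≤ D x y := by
    intro x y hxy
    rw [hDe]
    have : ¬ (G.induce {x : V | x ∉ A}).connectedComponentMk x =
        (G.induce {x : V | x ∉ A}).connectedComponentMk y :=
      fun h => hxy (SimpleGraph.ConnectedComponent.eq.1 h)
    simp only [if_neg this]
    have h1 := hWle x
    have h2 := hWle y
    have h3 := norm_nonneg (f x - f y)
    linarith
  obtain ⟨E, hE1, hE⟩ := hCONE V D ρ hDc hρ0
  have hT : IsL1 V (fun x y => 32 * E x y +
      ∑ a ∈ A, |wdist G ℓ x a - wdist G ℓ y a|) :=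
    (hE1.smul (by norm_num)).add
      (IsL1.sum A (fun a x y => |wdist G ℓ x a - wdist G ℓ y a|)
        fun a _ => IsL1.abs_sub (fun x => wdist G ℓ x a))
  obtain ⟨Ω', m', μ', g, hg⟩ := hREAL V _ hT
  refine ⟨Ω', m', μ', g, ?_⟩
  intro x y hxy
  rw [hg x y]
  -- the coordinates `wdist · a`
  have hcoord : ∀ a, |wdist G ℓ x a - wdist G ℓ y a| ≤ wdist G ℓ x y := by
    intro a
    by_cases hxa : G.Reachable x a
    · have hya : G.Reachable y a := hxy.symm.trans hxa
      have h1 := htri x y a hxy hya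
      have h2 := htri y x a hxy.symm hxa
      rw [hsymm y x] at h2
      rw [abs_le]
      constructor <;> linarith
    · have hya : ¬ G.Reachable y a := fun h => hxa (hxy.trans h)
      have h1 : wdist G ℓ x a = 0 := by
        have : IsEmpty (G.Walk x a) := ⟨fun w => hxa ⟨w⟩⟩
        unfold wdist
        exact Real.iInf_of_isEmpty _
      have h2 : wdist G ℓ y a = 0 := by
        have : IsEmpty (G.Walk y a) := ⟨fun w => hya ⟨w⟩⟩
        unfold wdist
        exact Real.iInf_of_isEmpty _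
      rw [h1, h2]
      simpa using hnn x y
  have hsum : ∑ a ∈ A, |wdist G ℓ x a - wdist G ℓ y a| ≤ A.card * wdist G ℓ x y := by
    calc ∑ a ∈ A, |wdist G ℓ x a - wdist G ℓ y a| ≤ ∑ a ∈ A, wdist G ℓ x y :=
          Finset.sum_le_sum fun a _ => hcoord a
      _ = A.card * wdist G ℓ x y := by simp
  have hsingle : ∀ a ∈ A, |wdist G ℓ x a - wdist G ℓ y a| ≤
      ∑ a ∈ A, |wdist G ℓ x a - wdist G ℓ y a| := fun a ha =>
    Finset.single_le_sum (f := fun a => |wdist G ℓ x a - wdist G ℓ y a|)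
      (fun _ _ => abs_nonneg _) ha
  have hEnn := hE1.nonneg x y
  have hdnn := hnn x y
  obtain ⟨hElo, hEup⟩ := hE x y
  have hDnn := hDc.nonneg x y
  by_cases hx : x ∈ A
  · have hup : E x y ≤ 15 * wdist G ℓ x y := by
      rw [hρA x hx] at hEup
      by_cases hy : y ∈ A
      · rw [hρA y hy] at hEup
        simp only [sub_self, abs_zero, add_zero] at hEup
        have := min_le_right (D x y) 0
        linarith
      · have h1 := hρle y hy x hx hxy.symm
        rw [hsymm y x] at h1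
        have h2 := hρ0 y
        have h3 := min_le_right (D x y) (0 + ρ y)
        rw [zero_sub, abs_neg, abs_of_nonneg h2] at hEup
        linarith
    have hlow := hsingle x hx
    rw [hself x, zero_sub, abs_neg, abs_of_nonneg (hnn y x), hsymm y x] at hlow
    constructor
    · linarith
    · have : (480 * c + A.card) * wdist G ℓ x y =
        480 * c * wdist G ℓ x y + A.card * wdist G ℓ x y := by ring
      nlinarith
  by_cases hy : y ∈ A
  · have hup : E x y ≤ 15 * wdist G ℓ x y := by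
      rw [hρA y hy] at hEup
      have h1 := hρle x hx y hy hxy
      have h2 := hρ0 x
      have h3 := min_le_right (D x y) (ρ x + 0)
      rw [sub_zero, abs_of_nonneg h2] at hEup
      linarith
    have hlow := hsingle y hy
    rw [hself y, sub_zero, abs_of_nonneg (hnn x y)] at hlow
    constructor
    · linarith
    · nlinarith
  -- both outside `A`
  have hlip : |ρ x - ρ y| ≤ wdist G ℓ x y := by
    have h1 := hρlip1 x y hx hy hxy
    have h2 := hρlip1 y x hy hx hxy.symm
    rw [hsymm y x] at h2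
    rw [abs_le]
    constructor <;> linarith
  have hmin : min (D x y) (ρ x + ρ y) ≤ c * wdist G ℓ x y := by
    have hc0 : 0 < c := by linarith
    have h : min (D x y) (ρ x + ρ y) / c ≤ wdist G ℓ x y := by
      apply hinf x y _ hxy
      intro w
      rw [div_le_iff₀ hc0]
      have hwl := (hw x y w).1
      rcases hd2 ⟨x, hx⟩ ⟨y, hy⟩ w with ⟨hr, hle⟩ | ⟨a, ha, hxa, hya, hle⟩
      · have h1 := hDreach ⟨x, hx⟩ ⟨y, hy⟩ hr
        have h2 := (hf ⟨x, hx⟩ ⟨y, hy⟩ hr).2
        have h3 : D x y ≤ c * wlen ℓ w := by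
          calc D x y = ‖f ⟨x, hx⟩ - f ⟨y, hy⟩‖ := h1
            _ ≤ c * wdist (G.induce {x | x ∉ A}) (resLen {x | x ∉ A} ℓ) ⟨x, hx⟩ ⟨y, hy⟩ := h2
            _ ≤ c * wlen ℓ w := mul_le_mul_of_nonneg_left hle hc0.le
        have h4 := min_le_left (D x y) (ρ x + ρ y)
        linarith [mul_comm c (wlen ℓ w)]
      · have haA : a ∈ A := by
          by_contra h
          exact ha h
        have h1 := hρle x hx a haA hxa
        have h2 := hρle y hy a haA hya
        have h4 := min_le_right (D x y) (ρ x + ρ y)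
        have h5 : wlen ℓ w ≤ wlen ℓ w * c := by nlinarith
        linarith
    rw [div_le_iff₀ hc0] at h
    linarith [mul_comm c (wdist G ℓ x y)]
  have hSnn : 0 ≤ ∑ a ∈ A, |wdist G ℓ x a - wdist G ℓ y a| :=
    Finset.sum_nonneg fun _ _ => abs_nonneg _
  -- lower estimate in the case of reachability in `G - A`
  have hlowreach : (G.induce {x : V | x ∉ A}).Reachable ⟨x, hx⟩ ⟨y, hy⟩ →
      wdist G ℓ x y ≤ D x y := by
    intro hr
    have h1 := hDreach ⟨x, hx⟩ ⟨y, hy⟩ hr
    have h2 := (hf ⟨x, hx⟩ ⟨y, hy⟩ hr).1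
    have h3 := (hd1 ⟨x, hx⟩ ⟨y, hy⟩ hr).2
    calc wdist G ℓ x y ≤ _ := h3
      _ ≤ _ := h2
      _ = D x y := h1.symm
  have hlow : wdist G ℓ x y ≤ 2 * min (D x y) (ρ x + ρ y) +
      ∑ a ∈ A, |wdist G ℓ x a - wdist G ℓ y a| := by
    rcases hρex x hx with ⟨a, ha, hxa, hρx⟩ | ⟨hno, hρx⟩
    · by_cases hr : (G.induce {x : V | x ∉ A}).Reachable ⟨x, hx⟩ ⟨y, hy⟩ ∧
          D x y ≤ ρ x + ρ y
      · rw [min_eq_left hr.2]
        have := hlowreach hr.1
        linarith
      · have hle : ρ x + ρ y ≤ D x y := by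
          by_contra hcon
          push Not at hcon
          by_cases hr' : (G.induce {x : V | x ∉ A}).Reachable ⟨x, hx⟩ ⟨y, hy⟩
          · exact hr ⟨hr', hcon.le⟩
          · exact absurd (hDnot ⟨x, hx⟩ ⟨y, hy⟩ hr') (not_le.2 hcon)
        rw [min_eq_right hle]
        have h1 := htri x a y hxa (hxa.symm.trans hxy)
        rw [hsymm a y] at h1
        have h2 := hsingle a ha
        have h3 := neg_abs_le (wdist G ℓ x a - wdist G ℓ y a)
        have h4 := hρ0 y
        linarith
    · have hno' : ∀ a ∈ A, ¬ G.Reachable y a := fun a ha h => hno a ha (hxy.trans h)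
      have hρy : ρ y = M := by
        rcases hρex y hy with ⟨a, ha, hya, _⟩ | ⟨_, h⟩
        · exact absurd hya (hno' a ha)
        · exact h
      have hr : (G.induce {x : V | x ∉ A}).Reachable ⟨x, hx⟩ ⟨y, hy⟩ := by
        obtain ⟨w⟩ := hxy
        rcases hd2 ⟨x, hx⟩ ⟨y, hy⟩ w with ⟨hr, _⟩ | ⟨a, ha, hxa, _, _⟩
        · exact hr
        · have haA : a ∈ A := by
            by_contra h
            exact ha h
          exact absurd hxa (hno a haA)
      have h1 : D x y ≤ ρ x + ρ y := by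
        have h2 := hDreach ⟨x, hx⟩ ⟨y, hy⟩ hr
        have h3 := hMle ⟨x, hx⟩ ⟨y, hy⟩
        have h4 : D x y ≤ M := by
          calc D x y = _ := h2
            _ ≤ M := h3
        rw [hρx, hρy]
        linarith
      rw [min_eq_left h1]
      have := hlowreach hr
      linarith
  constructor
  · linarith
  · nlinarith

end Vale.Agent.P235A
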