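import Vale.Agent.P235A.Plan

namespace Vale.Agent.P235A

universe u v

theorem ind_mem {X : Type u} {S : Set X} {x : X} (h : x ∈ S) : ind S x = 1 := by
  unfold ind; rw [if_pos h]

theorem ind_not_mem {X : Type u} {S : Set X} {x : X} (h : x ∉ S) : ind S x = 0 := by
  unfold ind; rw [if_neg h]

theorem IsL1.of_fintype {X : Type u} {E : X → X → ℝ} {ι : Type v} [Fintype ι] (g : X → ι → ℝ)
    (h : ∀ x y, E x y = ∑ i, |g x i - g y i|) : IsL1 X E := by
  refine ⟨Fintype.card ι, fun x i => g x ((Fintype.equivFin ι).symm i), ?_⟩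
  intro x y
  rw [h x y]
  exact (Equiv.sum_comp (Fintype.equivFin ι).symm (fun i => |g x i - g y i|)).symm

theorem IsL1.add {X : Type u} {E F : X → X → ℝ} (hE : IsL1 X E) (hF : IsL1 X F) :
    IsL1 X (fun x y => E x y + F x y) := by
  obtain ⟨N, g, hg⟩ := hE
  obtain ⟨M, k, hk⟩ := hF
  refine IsL1.of_fintype (ι := Fin N ⊕ Fin M) (fun x => Sum.elim (g x) (k x)) ?_
  intro x y
  simp only [Fintype.sum_sum_type, Sum.elim_inl, Sum.elim_inr]
  rw [hg, hk]

theorem IsL1.zero {X : Type u} : IsL1 X (fun _ _ => (0 : ℝ)) :=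
  ⟨0, fun _ i => i.elim0, by simp⟩

theorem IsL1.smul {X : Type u} {E : X → X → ℝ} (hE : IsL1 X E) {a : ℝ} (ha : 0 ≤ a) :
    IsL1 X (fun x y => a * E x y) := by
  obtain ⟨N, g, hg⟩ := hE
  refine ⟨N, fun x i => a * g x i, ?_⟩
  intro x y
  change a * E x y = ∑ i, |a * g x i - a * g y i|
  rw [hg x y, Finset.mul_sum]
  refine Finset.sum_congr rfl fun i _ => ?_
  rw [← mul_sub, abs_mul, abs_of_nonneg ha]

theorem IsL1.sum {X : Type u} {κ : Type v} (s : Finset κ) (E : κ → X → X → ℝ)
    (h : ∀ k ∈ s, IsL1 X (E k)) : IsL1 X (fun x y => ∑ k ∈ s, E k x y) := by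
  classical
  induction s using Finset.induction_on with
  | empty => simpa using (IsL1.zero (X := X))
  | insert a s ha ih =>
    have h1 := (h a (Finset.mem_insert_self a s)).add
      (ih fun k hk => h k (Finset.mem_insert_of_mem hk))
    simpa only [Finset.sum_insert ha] using h1

theorem IsL1.abs_sub {X : Type u} (f : X → ℝ) : IsL1 X (fun x y => |f x - f y|) :=
  ⟨1, fun x _ => f x, by simp⟩

theorem CutSum.isL1 {X : Type u} [Fintype X] {D : X → X → ℝ} (hD : CutSum X D) : IsL1 X D := by
  obtain ⟨ι, _, w, S, hw, hD⟩ := hD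
  refine IsL1.of_fintype (fun x i => w i * ind (S i) x) ?_
  intro x y
  rw [hD x y]
  refine Finset.sum_congr rfl fun i _ => ?_
  rw [← mul_sub, abs_mul, abs_of_nonneg (hw i)]

theorem CutSum.add {X : Type u} [Fintype X] {D E : X → X → ℝ} (hD : CutSum X D)
    (hE : CutSum X E) : CutSum X (fun x y => D x y + E x y) := by
  obtain ⟨ι, _, w, S, hw, hD⟩ := hD
  obtain ⟨κ, _, w', S', hw', hE⟩ := hE
  refine ⟨ι ⊕ κ, inferInstance, Sum.elim w w', Sum.elim S S', ?_, ?_⟩
  · rintro (i | i)
    · exact hw i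
    · exact hw' i
  · intro x y
    simp only [Fintype.sum_sum_type, Sum.elim_inl, Sum.elim_inr]
    rw [hD, hE]

theorem CutSum.nonneg {X : Type u} [Fintype X] {D : X → X → ℝ} (hD : CutSum X D) (x y : X) :
    0 ≤ D x y := by
  obtain ⟨ι, _, w, S, hw, hD⟩ := hD
  rw [hD]
  exact Finset.sum_nonneg fun i _ => mul_nonneg (hw i) (abs_nonneg _)

/-- pull back along a map -/
theorem CutSum.comp {X Y : Type u} [Fintype X] [Fintype Y] {D : X → X → ℝ} (hD : CutSum X D)
    (r : Y → X) : CutSum Y (fun x y => D (r x) (r y)) := by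
  obtain ⟨ι, _, w, S, hw, hD⟩ := hD
  exact ⟨ι, inferInstance, w, fun i => r ⁻¹' (S i), hw, fun x y => hD (r x) (r y)⟩

theorem IsL1.comp {X Y : Type u} {E : X → X → ℝ} (hE : IsL1 X E)
    (r : Y → X) : IsL1 Y (fun x y => E (r x) (r y)) := by
  obtain ⟨N, g, hg⟩ := hE
  exact ⟨N, fun y => g (r y), fun x y => hg _ _⟩

/-- the `0-1` semimetric of a function with values in a finite type is a cut sum -/
theorem CutSum.of_fun {X : Type u} [Fintype X] {κ : Type u} [Fintype κ] [DecidableEq κ]
    (q : X → κ) (a : ℝ) (ha : 0 ≤ a) :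
    CutSum X (fun x y => if q x = q y then 0 else 2 * a) := by
  classical
  refine ⟨κ, inferInstance, fun _ => a, fun k => {x | q x = k}, fun _ => ha, ?_⟩
  intro x y
  change (if q x = q y then (0 : ℝ) else 2 * a) =
    ∑ k, a * |ind {x | q x = k} x - ind {x | q x = k} y|
  by_cases h : q x = q y
  · rw [if_pos h]
    symm
    apply Finset.sum_eq_zero
    intro k _
    have : ind {x | q x = k} x = ind {x | q x = k} y := by
      by_cases hk : q x = k
      · have hk' : q y = k := h.symm.trans hk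
        rw [ind_mem (S := {x | q x = k}) hk, ind_mem (S := {x | q x = k}) hk']
      · have hk' : q y ≠ k := fun hh => hk (h.trans hh)
        rw [ind_not_mem (S := {x | q x = k}) hk, ind_not_mem (S := {x | q x = k}) hk']
    rw [this]; simp
  · rw [if_neg h]
    have h1 : ∀ k : κ, a * |ind {x | q x = k} x - ind {x | q x = k} y| =
        (if q x = k then a else 0) + (if q y = k then a else 0) := by
      intro k
      by_cases hx : q x = k
      · have hy : q y ≠ k := fun hy => h (hx.trans hy.symm)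
        rw [ind_mem (S := {x | q x = k}) hx, ind_not_mem (S := {x | q x = k}) hy,
          if_pos hx, if_neg hy]
        simp
      · by_cases hy : q y = k
        · rw [ind_not_mem (S := {x | q x = k}) hx, ind_mem (S := {x | q x = k}) hy,
            if_neg hx, if_pos hy]
          simp
        · rw [ind_not_mem (S := {x | q x = k}) hx, ind_not_mem (S := {x | q x = k}) hy,
            if_neg hx, if_neg hy]
          simp
    rw [Finset.sum_congr rfl fun k _ => h1 k, Finset.sum_add_distrib]
    simp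
    ring

end Vale.Agent.P235A
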