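import Vale.Agent.P235A.Plan2

namespace Vale.Agent.P235A

open MeasureTheory

universe u

theorem IsL1.triangle {X : Type u} {E : X → X → ℝ} (hE : IsL1 X E) (x y z : X) :
    E x z ≤ E x y + E y z := by
  obtain ⟨N, g, hg⟩ := hE
  rw [hg, hg, hg, ← Finset.sum_add_distrib]
  exact Finset.sum_le_sum fun i _ => abs_sub_le _ _ _

theorem IsL1.symm {X : Type u} {E : X → X → ℝ} (hE : IsL1 X E) (x y : X) : E x y = E y x := by
  obtain ⟨N, g, hg⟩ := hE
  rw [hg, hg]
  exact Finset.sum_congr rfl fun i _ => abs_sub_comm _ _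

theorem close (hCUT : S_CUT.{u}) (hREAL : S_REAL.{u}) (hCONE : S_CONE.{u}) (hMET : S_METRIC.{u})
    (hDEL : S_DEL.{u}) : S_CLOSE.{u} := by
  classical
  intro V _ G ℓ A c L Γ hℓ hc hL hΓ hΓup hΓlo hH
  obtain ⟨hw, hnn, hself, hsymm, htri, hinf⟩ := hMET V G ℓ hℓ
  obtain ⟨hd1, hd2⟩ := hDEL V G ℓ {x | x ∉ A} hℓ
  obtain ⟨Ω, _, μ, f, hf⟩ := hH
  have hD0 : CutSum {x : V | x ∉ A} (fun x y => ‖f x - f y‖) := hCUT _ Ω _ μ f
  set M : ℝ := ∑ x : {x : V | x ∉ A}, ∑ y : {x : V | x ∉ A}, ‖f x - f y‖ with hM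
  have hM0 : 0 ≤ M := Finset.sum_nonneg fun _ _ => Finset.sum_nonneg fun _ _ => norm_nonneg _
  have hMle : ∀ x y : {x : V | x ∉ A}, ‖f x - f y‖ ≤ M := by
    intro x y
    calc ‖f x - f y‖ ≤ ∑ y : {x : V | x ∉ A}, ‖f x - f y‖ :=
          Finset.single_le_sum (f := fun y : {x : V | x ∉ A} => ‖f x - f y‖)
            (fun _ _ => norm_nonneg _) (Finset.mem_univ y)
      _ ≤ M := Finset.single_le_sum
            (f := fun x : {x : V | x ∉ A} => ∑ y : {x : V | x ∉ A}, ‖f x - f y‖)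
            (fun _ _ => Finset.sum_nonneg fun _ _ => norm_nonneg _) (Finset.mem_univ x)
  set ρ : V → ℝ := fun x => if x ∈ A then 0 else
    if h : (A.filter (fun a => G.Reachable x a)).Nonempty then
      (A.filter (fun a => G.Reachable x a)).inf' h (fun a => wdist G ℓ x a) else M with hρ
  have hρA : ∀ x ∈ A, ρ x = 0 := fun x hx => by simp only [hρ, if_pos hx]
  have hρle : ∀ x, x ∉ A → ∀ a ∈ A, G.Reachable x a → ρ x ≤ wdist G ℓ x a := by
    intro x hx a ha hxa
    have hne : (A.filter (fun a => G.Reachable x a)).Nonempty :=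
      ⟨a, Finset.mem_filter.2 ⟨ha, hxa⟩⟩
    simp only [hρ, if_neg hx, dif_pos hne]
    exact Finset.inf'_le _ (Finset.mem_filter.2 ⟨ha, hxa⟩)
  have hρex : ∀ x, x ∉ A → (∃ a ∈ A, G.Reachable x a ∧ ρ x = wdist G ℓ x a) ∨
      ((∀ a ∈ A, ¬ G.Reachable x a) ∧ ρ x = M) := by
    intro x hx
    by_cases hne : (A.filter (fun a => G.Reachable x a)).Nonempty
    · left
      obtain ⟨a, ha, hae⟩ := Finset.exists_mem_eq_inf' hne (fun a => wdist G ℓ x a)
      rw [Finset.mem_filter] at ha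
      refine ⟨a, ha.1, ha.2, ?_⟩
      simp only [hρ, if_neg hx, dif_pos hne]
      exact hae
    · right
      refine ⟨fun a ha hxa => hne ⟨a, Finset.mem_filter.2 ⟨ha, hxa⟩⟩, ?_⟩
      simp only [hρ, if_neg hx, dif_neg hne]
  have hρ0 : ∀ x, 0 ≤ ρ x := by
    intro x
    by_cases hx : x ∈ A
    · rw [hρA x hx]
    · rcases hρex x hx with ⟨a, _, _, h⟩ | ⟨_, h⟩
      · rw [h]; exact hnn _ _
      · rw [h]; exact hM0
  have hρlip1 : ∀ x y, G.Reachable x y → ρ x ≤ ρ y + wdist G ℓ x y := by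
    intro x y hxy
    have hdn := hnn x y
    by_cases hx : x ∈ A
    · rw [hρA x hx]
      have := hρ0 y
      linarith
    by_cases hy : y ∈ A
    · have := hρle x hx y hy hxy
      rw [hρA y hy]
      linarith
    rcases hρex y hy with ⟨a, ha, hya, h⟩ | ⟨hno, h⟩
    · have h1 := hρle x hx a ha (hxy.trans hya)
      have h2 := htri x y a hxy hya
      linarith
    · rcases hρex x hx with ⟨a, ha, hxa, _⟩ | ⟨_, h'⟩
      · exact absurd (hxy.symm.trans hxa) (hno a ha)
      · rw [h, h']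
        linarith
  -- the components of `G - A`
  have hfin : Finite (G.induce {x : V | x ∉ A}).ConnectedComponent := inferInstance
  let _ : Fintype (G.induce {x : V | x ∉ A}).ConnectedComponent := Fintype.ofFinite _
  set W : ℝ := ∑ x, ρ x with hW
  have hWle : ∀ x, ρ x ≤ W := fun x =>
    Finset.single_le_sum (f := ρ) (fun _ _ => hρ0 _) (Finset.mem_univ x)
  have hW0 : 0 ≤ W := Finset.sum_nonneg fun _ _ => hρ0 _
  have hD1 := CutSum.of_fun (X := {x : V | x ∉ A})
    (fun x => (G.induce {x : V | x ∉ A}).connectedComponentMk x) W hW0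
  obtain ⟨D, hDc, hDe⟩ := (hD0.add hD1).extend
  have hDreach : ∀ x y : {x : V | x ∉ A}, (G.induce {x : V | x ∉ A}).Reachable x y →
      D x y = ‖f x - f y‖ := by
    intro x y hxy
    rw [hDe]
    have : (G.induce {x : V | x ∉ A}).connectedComponentMk x =
        (G.induce {x : V | x ∉ A}).connectedComponentMk y :=
      SimpleGraph.ConnectedComponent.eq.2 hxy
    simp only [if_pos this, add_zero]
  have hDnot : ∀ x y : {x : V | x ∉ A}, ¬ (G.induce {x : V | x ∉ A}).Reachable x y →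
      ρ x + ρ y ≤ D x y := by
    intro x y hxy
    rw [hDe]
    have : ¬ (G.induce {x : V | x ∉ A}).connectedComponentMk x =
        (G.induce {x : V | x ∉ A}).connectedComponentMk y :=
      fun h => hxy (SimpleGraph.ConnectedComponent.eq.1 h)
    simp only [if_neg this]
    have h1 := hWle x
    have h2 := hWle y
    have h3 := norm_nonneg (f x - f y)
    linarith
  obtain ⟨E, hE1, hE⟩ := hCONE V D ρ hDc hρ0
  have h1L : 0 ≤ 1 + L := by linarith
  have hT : IsL1 V (fun x y => (16 * (1 + L) * E x y + (1 + L) * |ρ x - ρ y|) + Γ x y) :=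
    ((hE1.smul (by positivity)).add ((IsL1.abs_sub ρ).smul h1L)).add hΓ
  obtain ⟨Ω', m', μ', g, hg⟩ := hREAL V _ hT
  refine ⟨Ω', m', μ', g, ?_⟩
  intro x y hxy
  rw [hg x y]
  have hEnn := hE1.nonneg x y
  have hΓnn := hΓ.nonneg x y
  have hdnn := hnn x y
  obtain ⟨hElo, hEup⟩ := hE x y
  have hDnn := hDc.nonneg x y
  have hlip : |ρ x - ρ y| ≤ wdist G ℓ x y := by
    have h1 := hρlip1 x y hxy
    have h2 := hρlip1 y x hxy.symm
    rw [hsymm y x] at h2
    rw [abs_le]
    constructor <;> linarith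
  have hmin : min (D x y) (ρ x + ρ y) ≤ c * wdist G ℓ x y := by
    have hcd : wdist G ℓ x y ≤ c * wdist G ℓ x y := by nlinarith
    by_cases hx : x ∈ A
    · have h1 := hρlip1 y x hxy.symm
      rw [hρA x hx, hsymm y x] at h1
      have h2 := min_le_right (D x y) (ρ x + ρ y)
      rw [hρA x hx] at h2 ⊢
      linarith
    by_cases hy : y ∈ A
    · have h1 := hρlip1 x y hxy
      rw [hρA y hy] at h1
      have h2 := min_le_right (D x y) (ρ x + ρ y)
      rw [hρA y hy] at h2 ⊢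
      linarith
    have hc0 : 0 < c := by linarith
    have h : min (D x y) (ρ x + ρ y) / c ≤ wdist G ℓ x y := by
      apply hinf x y _ hxy
      intro w
      rw [div_le_iff₀ hc0]
      have hwl := (hw x y w).1
      rcases hd2 ⟨x, hx⟩ ⟨y, hy⟩ w with ⟨hr, hle⟩ | ⟨a, ha, hxa, hya, hle⟩
      · have h1 := hDreach ⟨x, hx⟩ ⟨y, hy⟩ hr
        have h2 := (hf ⟨x, hx⟩ ⟨y, hy⟩ hr).2
        have h3 : D x y ≤ c * wlen ℓ w := by
          calc D x y = ‖f ⟨x, hx⟩ - f ⟨y, hy⟩‖ := h1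
            _ ≤ c * wdist (G.induce {x | x ∉ A}) (resLen {x | x ∉ A} ℓ) ⟨x, hx⟩ ⟨y, hy⟩ := h2
            _ ≤ c * wlen ℓ w := mul_le_mul_of_nonneg_left hle hc0.le
        have h4 := min_le_left (D x y) (ρ x + ρ y)
        linarith [mul_comm c (wlen ℓ w)]
      · have haA : a ∈ A := by
          by_contra h
          exact ha h
        have h1 := hρle x hx a haA hxa
        have h2 := hρle y hy a haA hya
        have h4 := min_le_right (D x y) (ρ x + ρ y)
        have h5 : wlen ℓ w ≤ wlen ℓ w * c := by nlinarith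
        linarith
    rw [div_le_iff₀ hc0] at h
    linarith [mul_comm c (wdist G ℓ x y)]
  have hup : (16 * (1 + L) * E x y + (1 + L) * |ρ x - ρ y|) + Γ x y ≤
      242 * (1 + L) * c * wdist G ℓ x y := by
    have hE15 : E x y ≤ 15 * (c * wdist G ℓ x y) := by
      have : wdist G ℓ x y ≤ c * wdist G ℓ x y := by nlinarith
      linarith
    have h1 : 16 * (1 + L) * E x y ≤ 16 * (1 + L) * (15 * (c * wdist G ℓ x y)) :=
      mul_le_mul_of_nonneg_left hE15 (by positivity)
    have hcd : wdist G ℓ x y ≤ c * wdist G ℓ x y := by nlinarith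
    have h2 : (1 + L) * |ρ x - ρ y| ≤ (1 + L) * (c * wdist G ℓ x y) :=
      mul_le_mul_of_nonneg_left (hlip.trans hcd) h1L
    have h3 : Γ x y ≤ (1 + L) * (c * wdist G ℓ x y) := by
      calc Γ x y ≤ L * wdist G ℓ x y := hΓup x y hxy
        _ ≤ (1 + L) * wdist G ℓ x y := by nlinarith
        _ ≤ (1 + L) * (c * wdist G ℓ x y) := mul_le_mul_of_nonneg_left hcd h1L
    calc _ ≤ 16 * (1 + L) * (15 * (c * wdist G ℓ x y)) + (1 + L) * (c * wdist G ℓ x y) +
          (1 + L) * (c * wdist G ℓ x y) := by linarith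
      _ = 242 * (1 + L) * c * wdist G ℓ x y := by ring
  refine ⟨?_, hup⟩
  -- nearest points of `A`
  have hnear : ∀ z a', a' ∈ A → G.Reachable z a' →
      ∃ a ∈ A, G.Reachable z a ∧ ρ z = wdist G ℓ z a := by
    intro z a' ha' hza'
    by_cases hz : z ∈ A
    · exact ⟨z, hz, SimpleGraph.Reachable.refl z, by rw [hρA z hz, hself z]⟩
    · rcases hρex z hz with h | ⟨hno, _⟩
      · exact h
      · exact absurd hza' (hno a' ha')
  -- the estimate through `A`
  have hthrough : ∀ a' ∈ A, G.Reachable x a' →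
      wdist G ℓ x y ≤ (1 + L) * (ρ x + ρ y) + Γ x y := by
    intro a' ha' hxa'
    obtain ⟨a, ha, hxa, hρx⟩ := hnear x a' ha' hxa'
    obtain ⟨b, hb, hyb, hρy⟩ := hnear y a' ha' (hxy.symm.trans hxa')
    have hab : G.Reachable a b := hxa.symm.trans (hxy.trans hyb)
    have h1 := htri x a y hxa (hxa.symm.trans hxy)
    have h2 := htri a b y hab hyb.symm
    rw [hsymm b y] at h2
    have h3 := hΓlo a ha b hb hab
    have h4 := hΓ.triangle a x b
    have h5 := hΓ.triangle x y b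
    have h6 := hΓup x a hxa
    have h7 := hΓup y b hyb
    rw [hΓ.symm a x] at h4
    rw [← hρx] at h1 h6
    rw [← hρy] at h2 h7
    have : (1 + L) * (ρ x + ρ y) = (ρ x + ρ y) + L * ρ x + L * ρ y := by ring
    linarith
  have hLE : E x y ≤ (1 + L) * E x y := by nlinarith
  by_cases hx : x ∈ A
  · have h1 := hthrough x hx (SimpleGraph.Reachable.refl x)
    have h2 : |ρ x - ρ y| = ρ x + ρ y := by
      rw [hρA x hx, zero_sub, abs_neg, abs_of_nonneg (hρ0 y), zero_add]
    rw [h2]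
    have h3 : 0 ≤ 16 * (1 + L) * E x y := by positivity
    linarith
  by_cases hy : y ∈ A
  · have h1 := hthrough y hy hxy
    have h2 : |ρ x - ρ y| = ρ x + ρ y := by
      rw [hρA y hy, sub_zero, abs_of_nonneg (hρ0 x), add_zero]
    rw [h2]
    have h3 : 0 ≤ 16 * (1 + L) * E x y := by positivity
    linarith
  have habs : 0 ≤ (1 + L) * |ρ x - ρ y| := by positivity
  have hE16 : min (D x y) (ρ x + ρ y) ≤ 16 * E x y := by linarith
  have hlowreach : (G.induce {x : V | x ∉ A}).Reachable ⟨x, hx⟩ ⟨y, hy⟩ →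
      wdist G ℓ x y ≤ D x y := by
    intro hr
    have h1 := hDreach ⟨x, hx⟩ ⟨y, hy⟩ hr
    have h2 := (hf ⟨x, hx⟩ ⟨y, hy⟩ hr).1
    have h3 := (hd1 ⟨x, hx⟩ ⟨y, hy⟩ hr).2
    calc wdist G ℓ x y ≤ _ := h3
      _ ≤ _ := h2
      _ = D x y := h1.symm
  -- if the minimum is `D` and `x, y` are joined in `G - A`
  have hcaseD : (G.induce {x : V | x ∉ A}).Reachable ⟨x, hx⟩ ⟨y, hy⟩ → D x y ≤ ρ x + ρ y →
      wdist G ℓ x y ≤ 16 * (1 + L) * E x y + (1 + L) * |ρ x - ρ y| + Γ x y := by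
    intro hr hle
    rw [min_eq_left hle] at hE16
    have h1 := hlowreach hr
    have h2 : 16 * (1 + L) * E x y = 16 * ((1 + L) * E x y) := by ring
    linarith
  rcases hρex x hx with ⟨a, ha, hxa, _⟩ | ⟨hno, hρx⟩
  · by_cases hr : (G.induce {x : V | x ∉ A}).Reachable ⟨x, hx⟩ ⟨y, hy⟩ ∧
        D x y ≤ ρ x + ρ y
    · exact hcaseD hr.1 hr.2
    · have hle : ρ x + ρ y ≤ D x y := by
        by_contra hcon
        push Not at hcon
        by_cases hr' : (G.induce {x : V | x ∉ A}).Reachable ⟨x, hx⟩ ⟨y, hy⟩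
        · exact hr ⟨hr', hcon.le⟩
        · exact absurd (hDnot ⟨x, hx⟩ ⟨y, hy⟩ hr') (not_le.2 hcon)
      rw [min_eq_right hle] at hE16
      have h1 := hthrough a ha hxa
      have h2 : (1 + L) * (ρ x + ρ y) ≤ (1 + L) * (16 * E x y) :=
        mul_le_mul_of_nonneg_left hE16 h1L
      have h3 : (1 + L) * (16 * E x y) = 16 * (1 + L) * E x y := by ring
      linarith
  · have hno' : ∀ a ∈ A, ¬ G.Reachable y a := fun a ha h => hno a ha (hxy.trans h)
    have hρy : ρ y = M := by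
      rcases hρex y hy with ⟨a, ha, hya, _⟩ | ⟨_, h⟩
      · exact absurd hya (hno' a ha)
      · exact h
    have hr : (G.induce {x : V | x ∉ A}).Reachable ⟨x, hx⟩ ⟨y, hy⟩ := by
      obtain ⟨w⟩ := hxy
      rcases hd2 ⟨x, hx⟩ ⟨y, hy⟩ w with ⟨hr, _⟩ | ⟨a, ha, hxa, _, _⟩
      · exact hr
      · have haA : a ∈ A := by
          by_contra h
          exact ha h
        exact absurd hxa (hno a haA)
    refine hcaseD hr ?_
    have h2 := hDreach ⟨x, hx⟩ ⟨y, hy⟩ hr
    have h3 := hMle ⟨x, hx⟩ ⟨y, hy⟩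
    have h4 : D x y ≤ M := by
      calc D x y = _ := h2
        _ ≤ M := h3
    rw [hρx, hρy]
    linarith

end Vale.Agent.P235A
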