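import Vale.Agent.P235A.Base

/-! P235A, module CONE -/

namespace Vale.Agent.P235A

universe u

theorem cone (hb : S_BUMP.{u}) (hs : S_SCALE) : S_CONE.{u} := by
  intro X _ D ρ hD hρ
  obtain ⟨s1, s2, s3, s4, s5⟩ := hs
  have hD0 : ∀ x y, 0 ≤ D x y := by
    obtain ⟨ι, _, w, S, hw, h⟩ := hD
    intro x y
    rw [h]
    exact Finset.sum_nonneg fun i _ => mul_nonneg (hw i) (abs_nonneg _)
  have hDs : ∀ x y, D x y = D y x := by
    obtain ⟨ι, _, w, S, hw, h⟩ := hD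
    intro x y
    rw [h, h]
    exact Finset.sum_congr rfl fun i _ => by rw [abs_sub_comm]
  obtain ⟨n, hn⟩ := pow_unbounded_of_one_lt (∑ x, (ρ x + (ρ x)⁻¹)) (one_lt_two (α := ℝ))
  have hterm : ∀ x, ρ x + (ρ x)⁻¹ ≤ ∑ x, (ρ x + (ρ x)⁻¹) := fun x =>
    Finset.single_le_sum (f := fun x => ρ x + (ρ x)⁻¹)
      (fun y _ => add_nonneg (hρ y) (inv_nonneg.2 (hρ y))) (Finset.mem_univ x)
  set J : ℤ := (n : ℤ) with hJ
  have hJ1 : ∀ x, ρ x ≤ (2 : ℝ) ^ J := fun x => by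
    have h1 := hterm x
    have h2 := inv_nonneg.2 (hρ x)
    rw [hJ, zpow_natCast]
    linarith
  have hJ2 : ∀ x, 0 < ρ x → (2 : ℝ) ^ (-J) ≤ ρ x := fun x hx => by
    have h1 := hterm x
    have h3 : (ρ x)⁻¹ ≤ (2 : ℝ) ^ J := by
      rw [hJ, zpow_natCast]
      linarith
    rw [zpow_neg]
    exact (inv_le_comm₀ hx (by positivity)).1 h3
  set E : X → X → ℝ := fun x y => ∑ j ∈ Finset.Icc (-J) J, (|bump j (ρ x) - bump j (ρ y)| +
    min (bump j (ρ x)) (bump j (ρ y)) * (1 - Real.exp (-(((2 : ℝ) ^ j)⁻¹ * D x y)))) with hE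
  have hEs : ∀ x y, E x y = E y x := by
    intro x y
    simp only [hE]
    refine Finset.sum_congr rfl fun j _ => ?_
    rw [abs_sub_comm, min_comm, hDs x y]
  have hE0 : ∀ x y, 0 ≤ E x y := by
    intro x y
    refine Finset.sum_nonneg fun j _ => add_nonneg (abs_nonneg _)
      (mul_nonneg (le_min (s1 j _).1 (s1 j _).1) ?_)
    rw [sub_nonneg, Real.exp_le_one_iff]
    have := hD0 x y
    have h2 : (0 : ℝ) < ((2 : ℝ) ^ j)⁻¹ := by positivity
    nlinarith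
  have hlow : ∀ x y, ρ y ≤ ρ x → min (D x y) (ρ x + ρ y) / 16 ≤ E x y := by
    intro x y hxy
    rcases (hρ x).eq_or_lt with h0 | h0
    · have h1 : ρ y = 0 := le_antisymm (by linarith) (hρ y)
      rw [← h0, h1, add_zero, min_eq_right (hD0 x y), zero_div]
      exact hE0 x y
    · exact s5 J (ρ x) (ρ y) (D x y) (hρ y) hxy h0 (hD0 x y) (hJ2 x h0) (hJ1 x)
  refine ⟨E, ?_, fun x y => ⟨?_, ?_⟩⟩
  · refine IsL1.sum _ (fun j x y => |bump j (ρ x) - bump j (ρ y)| +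
      min (bump j (ρ x)) (bump j (ρ y)) * (1 - Real.exp (-(((2 : ℝ) ^ j)⁻¹ * D x y)))) ?_
    intro j _
    exact hb X D (((2 : ℝ) ^ j)⁻¹) (fun x => bump j (ρ x)) hD (by positivity) fun x => (s1 j _).1
  · rcases le_total (ρ y) (ρ x) with h | h
    · exact hlow x y h
    · rw [hEs, hDs x y, add_comm (ρ x)]
      exact hlow y x h
  · simp only [hE]
    rw [Finset.sum_add_distrib]
    exact add_le_add (s3 J _ _ (hρ x) (hρ y)) (s4 J _ _ _ (hρ x) (hρ y) (hD0 x y))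

end Vale.Agent.P235A
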