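import Vale.Agent.P235A.Plan

set_option autoImplicit false

namespace Vale.Agent.P235A

open MeasureTheory
open scoped ENNReal NNReal

universe u v

namespace CutX

variable {X : Type u}

theorem indm {S : Set X} {x : X} (h : x ∈ S) : ind S x = 1 := by
  unfold ind; rw [if_pos h]

theorem indn {S : Set X} {x : X} (h : x ∉ S) : ind S x = 0 := by
  unfold ind; rw [if_neg h]

/-- the levels `t` with superlevel set `S` -/
def T (a : X → ℝ) (S : Set X) : Set ℝ := {t | ∀ x, t < a x ↔ x ∈ S}

theorem measE [Fintype X] {Ω : Type v} [MeasurableSpace Ω] (g : X → Ω → ℝ)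
    (hg : ∀ x, Measurable (g x)) (S : Set X) :
    MeasurableSet {p : Ω × ℝ | ∀ x, p.2 < g x p.1 ↔ x ∈ S} := by
  rw [Set.setOf_forall]
  refine MeasurableSet.iInter fun x => ?_
  have h : MeasurableSet {p : Ω × ℝ | p.2 < g x p.1} :=
    measurableSet_lt measurable_snd ((hg x).comp measurable_fst)
  by_cases hx : x ∈ S
  · have e : {p : Ω × ℝ | p.2 < g x p.1 ↔ x ∈ S} = {p : Ω × ℝ | p.2 < g x p.1} := by
      ext p
      simp only [Set.mem_setOf_eq, hx, iff_true]
    rw [e]
    exact h
  · have e : {p : Ω × ℝ | p.2 < g x p.1 ↔ x ∈ S} = {p : Ω × ℝ | p.2 < g x p.1}ᶜ := by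
      ext p
      simp only [Set.mem_setOf_eq, hx, iff_false, Set.mem_compl_iff]
    rw [e]
    exact h.compl

theorem measT [Fintype X] (a : X → ℝ) (S : Set X) : MeasurableSet (T a S) := by
  have h := measE (Ω := Unit) (fun x _ => a x) (fun x => measurable_const) S
  exact measurable_prodMk_left (x := ()) h

theorem level (a : X → ℝ) (x y : X) (t : ℝ) :
    ENNReal.ofReal |ind {z | t < a z} x - ind {z | t < a z} y| =
      (Set.Ico (min (a x) (a y)) (max (a x) (a y))).indicator 1 t := by
  by_cases hx : t < a x <;> by_cases hy : t < a y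
  · rw [indm (show x ∈ {z | t < a z} from hx), indm (show y ∈ {z | t < a z} from hy),
      Set.indicator_of_notMem]
    · simp
    · rintro ⟨h, _⟩
      rcases min_le_iff.1 h with h | h
      · exact absurd hx (not_lt.2 h)
      · exact absurd hy (not_lt.2 h)
  · rw [indm (show x ∈ {z | t < a z} from hx), indn (show y ∉ {z | t < a z} from hy),
      Set.indicator_of_mem]
    · simp
    · exact ⟨min_le_iff.2 (Or.inr (not_lt.1 hy)), lt_max_iff.2 (Or.inl hx)⟩
  · rw [indn (show x ∉ {z | t < a z} from hx), indm (show y ∈ {z | t < a z} from hy),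
      Set.indicator_of_mem]
    · simp
    · exact ⟨min_le_iff.2 (Or.inl (not_lt.1 hx)), lt_max_iff.2 (Or.inr hy)⟩
  · rw [indn (show x ∉ {z | t < a z} from hx), indn (show y ∉ {z | t < a z} from hy),
      Set.indicator_of_notMem]
    · simp
    · rintro ⟨_, h⟩
      rcases lt_max_iff.1 h with h | h
      · exact hx h
      · exact hy h

theorem expand [Fintype X] (a : X → ℝ) (x y : X) (t : ℝ) :
    ENNReal.ofReal |ind {z | t < a z} x - ind {z | t < a z} y| =
      ∑ S : Set X, ENNReal.ofReal |ind S x - ind S y| * (T a S).indicator 1 t := by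
  rw [Finset.sum_eq_single {z | t < a z}]
  · rw [Set.indicator_of_mem (show t ∈ T a {z | t < a z} from fun z => Iff.rfl)]
    simp
  · intro S _ hS
    rw [Set.indicator_of_notMem, mul_zero]
    intro h
    apply hS
    ext z
    exact (h z).symm
  · intro h
    exact absurd (Finset.mem_univ _) h

theorem point [Fintype X] (a : X → ℝ) (x y : X) :
    ENNReal.ofReal |a x - a y| =
      ∑ S : Set X, ENNReal.ofReal |ind S x - ind S y| * volume (T a S) := by
  have h1 : ∫⁻ t : ℝ, ENNReal.ofReal |ind {z | t < a z} x - ind {z | t < a z} y| =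
      ENNReal.ofReal |a x - a y| := by
    simp_rw [level a x y]
    rw [lintegral_indicator_one measurableSet_Ico, Real.volume_Ico, max_sub_min_eq_abs']
  rw [← h1]
  simp_rw [expand a x y]
  rw [lintegral_finset_sum]
  · refine Finset.sum_congr rfl fun S _ => ?_
    rw [lintegral_const_mul, lintegral_indicator_one (measT a S)]
    exact measurable_one.indicator (measT a S)
  · intro S _
    exact (measurable_one.indicator (measT a S)).const_mul _

end CutX

open CutX in
theorem cut : S_CUT.{u} := by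
  intro X _ Ω _ μ f
  have hmeas : ∀ x, Measurable (f x : Ω → ℝ) := fun x => (Lp.stronglyMeasurable (f x)).measurable
  have hT : ∀ S : Set X, Measurable fun ω => volume (T (fun x => (f x : Ω → ℝ) ω) S) := by
    intro S
    exact measurable_measure_prodMk_left (measE (fun x => (f x : Ω → ℝ)) hmeas S)
  refine ⟨Set X, inferInstance,
    fun S => (∫⁻ ω, volume (T (fun x => (f x : Ω → ℝ) ω) S) ∂μ).toReal, id,
    fun S => ENNReal.toReal_nonneg, ?_⟩
  intro x y
  have h1 : eLpNorm (f x - f y : Lp ℝ 1 μ) 1 μ =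
      ∫⁻ ω, ENNReal.ofReal |(f x : Ω → ℝ) ω - (f y : Ω → ℝ) ω| ∂μ := by
    rw [eLpNorm_one_eq_lintegral_enorm]
    apply lintegral_congr_ae
    filter_upwards [Lp.coeFn_sub (f x) (f y)] with ω hω
    rw [hω, Pi.sub_apply, Real.enorm_eq_ofReal_abs]
  have h2 : ∫⁻ ω, ENNReal.ofReal |(f x : Ω → ℝ) ω - (f y : Ω → ℝ) ω| ∂μ =
      ∑ S : Set X, ENNReal.ofReal |ind S x - ind S y| *
        ∫⁻ ω, volume (T (fun x => (f x : Ω → ℝ) ω) S) ∂μ := by
    have : ∀ ω, ENNReal.ofReal |(f x : Ω → ℝ) ω - (f y : Ω → ℝ) ω| =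
        ∑ S : Set X, ENNReal.ofReal |ind S x - ind S y| *
          volume (T (fun x => (f x : Ω → ℝ) ω) S) := fun ω =>
      point (fun x => (f x : Ω → ℝ) ω) x y
    simp_rw [this]
    rw [lintegral_finset_sum]
    · refine Finset.sum_congr rfl fun S _ => ?_
      rw [lintegral_const_mul _ (hT S)]
    · intro S _
      exact (hT S).const_mul _
  have h3 : ∑ S : Set X, ENNReal.ofReal |ind S x - ind S y| *
        ∫⁻ ω, volume (T (fun x => (f x : Ω → ℝ) ω) S) ∂μ ≠ ∞ := by
    rw [← h2, ← h1]
    exact Lp.eLpNorm_ne_top _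
  change ‖f x - f y‖ = _
  rw [Lp.norm_def, h1, h2, ENNReal.toReal_sum]
  · refine Finset.sum_congr rfl fun S _ => ?_
    rw [ENNReal.toReal_mul, ENNReal.toReal_ofReal (abs_nonneg _), mul_comm]
    rfl
  · intro S hS
    exact (ENNReal.sum_ne_top.1 h3) S hS

end Vale.Agent.P235A
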