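import Vale.Agent.P235A.Plan

/-!
# P235: deleting vertices
-/

namespace Vale.Agent.P235A

universe u v

namespace DEL

variable {V : Type u} {G : SimpleGraph V} (ℓ : Sym2 V → ℝ)

lemma wlen_map (s : Set V) {x y : s} (w : (G.induce s).Walk x y) :
    wlen ℓ (w.map (SimpleGraph.Embedding.induce s).toHom) = wlen (resLen s ℓ) w := by
  unfold wlen
  rw [SimpleGraph.Walk.edges_map, List.map_map]
  rfl

lemma pos (hℓ : ∀ e ∈ G.edgeSet, 0 < ℓ e) (s : Set V) :
    ∀ e ∈ (G.induce s).edgeSet, 0 < resLen s ℓ e := by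
  intro e he
  induction e using Sym2.ind with
  | _ a b =>
    refine hℓ _ ?_
    exact he

end DEL

open DEL in
theorem del (hm : S_METRIC.{u}) : S_DEL.{u} := by
  intro V G ℓ s hℓ
  obtain ⟨h1, h2, h3, h4, h5, h6⟩ := hm V G ℓ hℓ
  obtain ⟨k1, k2, k3, k4, k5, k6⟩ := hm s (G.induce s) (resLen s ℓ) (pos ℓ hℓ s)
  refine ⟨fun x y hxy => ⟨?_, ?_⟩, fun x y w => ?_⟩
  · exact hxy.map (SimpleGraph.Embedding.induce s).toHom
  · refine k6 x y _ hxy fun w => ?_
    rw [← wlen_map]
    exact (h1 _ _ _).2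
  · by_cases hs : ∀ z ∈ w.support, z ∈ s
    · left
      refine ⟨⟨w.induce s hs⟩, ?_⟩
      have hk := (k1 _ _ (w.induce s hs)).2
      refine hk.trans (le_of_eq ?_)
      rw [← wlen_map]
      congr 1
      exact SimpleGraph.Walk.map_induce w hs
    · right
      push Not at hs
      obtain ⟨a, ha, has⟩ := hs
      classical
      refine ⟨a, has, ⟨w.takeUntil a ha⟩, ⟨(w.dropUntil a ha).reverse⟩, ?_⟩
      have e1 := (h1 _ _ (w.takeUntil a ha)).2
      have e2 := (h1 _ _ (w.dropUntil a ha)).2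
      rw [h4 y a]
      have e3 : wlen ℓ w = wlen ℓ (w.takeUntil a ha) + wlen ℓ (w.dropUntil a ha) := by
        unfold wlen
        conv_lhs => rw [← w.take_spec ha]
        rw [SimpleGraph.Walk.edges_append, List.map_append, List.sum_append]
      linarith

end Vale.Agent.P235A
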