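import Vale.Agent.P235A.Apex

namespace Vale.Agent.P235A

open MeasureTheory

universe u

/-- DISJ: disjoint unions. -/
def S_DISJ : Prop := ∀ (V : Type u) [Fintype V] (G : SimpleGraph V) (V1 V2 : Set V) (c : ℝ),
  V1 ∪ V2 = Set.univ → V1 ∩ V2 = ∅ →
  (∀ u v, G.Adj u v → (u ∈ V1 ∧ v ∈ V1) ∨ (u ∈ V2 ∧ v ∈ V2)) →
  C1AtMost (G.induce V1) c → C1AtMost (G.induce V2) c → C1AtMost G c

theorem walk_stays {V : Type u} {G : SimpleGraph V} {V1 V2 : Set V}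
    (hdisj : V1 ∩ V2 = ∅)
    (hadj : ∀ u v, G.Adj u v → (u ∈ V1 ∧ v ∈ V1) ∨ (u ∈ V2 ∧ v ∈ V2)) {x y : V}
    (w : G.Walk x y) : x ∈ V1 → y ∈ V1 := by
  induction w with
  | nil => exact id
  | cons h _ ih =>
    intro hx
    apply ih
    rcases hadj _ _ h with ⟨_, h2⟩ | ⟨h1, _⟩
    · exact h2
    · exact absurd (show _ ∈ V1 ∩ V2 from ⟨hx, h1⟩) (by rw [hdisj]; exact Set.notMem_empty _)

theorem CutSum.extend0 {V : Type u} [Fintype V] (s : Set V) [Fintype s] {D : s → s → ℝ}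
    (hD : CutSum s D) : ∃ D' : V → V → ℝ, CutSum V D' ∧ (∀ x y : s, D' x y = D x y) ∧
      ∀ x y, x ∉ s → y ∉ s → D' x y = 0 := by
  obtain ⟨ι, _, w, S, hw, hD⟩ := hD
  refine ⟨fun x y => ∑ i, w i * |ind (Subtype.val '' S i) x - ind (Subtype.val '' S i) y|,
    ⟨ι, inferInstance, w, fun i => Subtype.val '' S i, hw, fun _ _ => rfl⟩, ?_, ?_⟩
  · intro x y
    rw [hD]
    refine Finset.sum_congr rfl fun i _ => ?_
    rw [ind_image, ind_image]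
  · intro x y hx hy
    apply Finset.sum_eq_zero
    intro i _
    have h : ∀ z, z ∉ s → ind (Subtype.val '' S i) z = 0 := by
      intro z hz
      apply ind_not_mem
      rintro ⟨t, _, ht⟩
      exact hz (ht ▸ t.2)
    rw [h x hx, h y hy]
    simp

theorem disj (hCUT : S_CUT.{u}) (hREAL : S_REAL.{u}) (hMET : S_METRIC.{u})
    (hDEL : S_DEL.{u}) : S_DISJ.{u} := by
  classical
  intro V _ G V1 V2 c hun hdisj hadj h1 h2 ℓ hℓ
  obtain ⟨hw, hnn, hself, hsymm, htri, hinf⟩ := hMET V G ℓ hℓ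
  obtain ⟨Ω1, m1, μ1, f1, hf1⟩ := h1 (resLen V1 ℓ) (resLen_pos G _ ℓ hℓ)
  obtain ⟨Ω2, m2, μ2, f2, hf2⟩ := h2 (resLen V2 ℓ) (resLen_pos G _ ℓ hℓ)
  obtain ⟨D1, hD1, hD1e, hD10⟩ := (hCUT V1 Ω1 m1 μ1 f1).extend0
  obtain ⟨D2, hD2, hD2e, hD20⟩ := (hCUT V2 Ω2 m2 μ2 f2).extend0
  obtain ⟨Ω, m, μ, g, hg⟩ := hREAL V _ (hD1.isL1.add hD2.isL1)
  refine ⟨Ω, m, μ, g, ?_⟩
  intro x y hxy
  rw [hg x y]
  have hadj' : ∀ u v, G.Adj u v → (u ∈ V2 ∧ v ∈ V2) ∨ (u ∈ V1 ∧ v ∈ V1) :=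
    fun u v h => (hadj u v h).symm
  have hdisj' : V2 ∩ V1 = ∅ := by rw [Set.inter_comm]; exact hdisj
  -- a general statement for one side
  have key : ∀ (U : Set V) (f' : U → ℝ) (D' : V → V → ℝ) (a b : V) (ha : a ∈ U) (hb : b ∈ U),
      (∀ z, G.Reachable a z → z ∈ U) → G.Reachable a b →
      (G.induce U).Reachable ⟨a, ha⟩ ⟨b, hb⟩ ∧
        wdist (G.induce U) (resLen U ℓ) ⟨a, ha⟩ ⟨b, hb⟩ = wdist G ℓ a b := by
    intro U _ _ a b ha hb hstay hab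
    obtain ⟨hd1, hd2⟩ := hDEL V G ℓ U hℓ
    have hr : (G.induce U).Reachable ⟨a, ha⟩ ⟨b, hb⟩ := by
      obtain ⟨w⟩ := hab
      rcases hd2 ⟨a, ha⟩ ⟨b, hb⟩ w with ⟨hr, _⟩ | ⟨z, hz, haz, _, _⟩
      · exact hr
      · exact absurd (hstay z haz) hz
    refine ⟨hr, le_antisymm ?_ (hd1 ⟨a, ha⟩ ⟨b, hb⟩ hr).2⟩
    apply hinf a b _ hab
    intro w
    rcases hd2 ⟨a, ha⟩ ⟨b, hb⟩ w with ⟨_, h⟩ | ⟨z, hz, haz, _, _⟩
    · exact h
    · exact absurd (hstay z haz) hz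
  have hx : x ∈ V1 ∪ V2 := by rw [hun]; trivial
  rcases hx with hx | hx
  · have hstay : ∀ z, G.Reachable x z → z ∈ V1 := by
      rintro z ⟨w⟩
      exact walk_stays hdisj hadj w hx
    have hy : y ∈ V1 := hstay y hxy
    obtain ⟨hr, hdist⟩ := key V1 (fun _ => 0) D1 x y hx hy hstay hxy
    have hx2 : x ∉ V2 := fun h => by
      have : x ∈ V1 ∩ V2 := ⟨hx, h⟩
      rw [hdisj] at this; exact this
    have hy2 : y ∉ V2 := fun h => by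
      have : y ∈ V1 ∩ V2 := ⟨hy, h⟩
      rw [hdisj] at this; exact this
    have e1 := hD1e ⟨x, hx⟩ ⟨y, hy⟩
    have e2 := hD20 x y hx2 hy2
    have e3 := hf1 ⟨x, hx⟩ ⟨y, hy⟩ hr
    rw [hdist] at e3
    simp only at e1
    rw [e1, e2, add_zero]
    exact e3
  · have hstay : ∀ z, G.Reachable x z → z ∈ V2 := by
      rintro z ⟨w⟩
      exact walk_stays hdisj' hadj' w hx
    have hy : y ∈ V2 := hstay y hxy
    obtain ⟨hr, hdist⟩ := key V2 (fun _ => 0) D2 x y hx hy hstay hxy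
    have hx1 : x ∉ V1 := fun h => by
      have : x ∈ V1 ∩ V2 := ⟨h, hx⟩
      rw [hdisj] at this; exact this
    have hy1 : y ∉ V1 := fun h => by
      have : y ∈ V1 ∩ V2 := ⟨h, hy⟩
      rw [hdisj] at this; exact this
    have e1 := hD2e ⟨x, hx⟩ ⟨y, hy⟩
    have e2 := hD10 x y hx1 hy1
    have e3 := hf2 ⟨x, hx⟩ ⟨y, hy⟩ hr
    rw [hdist] at e3
    simp only at e1
    rw [e1, e2, zero_add]
    exact e3

end Vale.Agent.P235A
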