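import Vale.Agent.P235A.Plan2

/-!
# P235, second part: module GEO
On a shortest walk the distance from the start is an isometry.
-/

namespace Vale.Agent.P235A

universe u

namespace GeoAux

open SimpleGraph

variable {V : Type u}

theorem wlen_append {G : SimpleGraph V} (ℓ : Sym2 V → ℝ) {x y z : V} (p : G.Walk x y)
    (q : G.Walk y z) : wlen ℓ (p.append q) = wlen ℓ p + wlen ℓ q := by
  unfold wlen
  rw [Walk.edges_append, List.map_append, List.sum_append]

theorem three {G : SimpleGraph V} {ℓ : Sym2 V → ℝ} (hmet : S_METRIC.{u})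
    (hℓ : ∀ e ∈ G.edgeSet, 0 < ℓ e) {x a b y : V} (p : G.Walk x a) (q : G.Walk a b)
    (r : G.Walk b y) (h : wlen ℓ p + wlen ℓ q + wlen ℓ r = wdist G ℓ x y) :
    wdist G ℓ a b ≤ wdist G ℓ x b - wdist G ℓ x a := by
  obtain ⟨h1, -, -, -, h5, -⟩ := hmet V G ℓ hℓ
  have a1 := (h1 x a p).2
  have a2 := (h1 a b q).2
  have a3 := (h1 b y r).2
  have a4 := h5 x b y (p.append q).reachable r.reachable
  linarith

end GeoAux

open GeoAux in
theorem geo : S_METRIC.{u} → S_GEO.{u} := by
  intro hmet V G ℓ hℓ x y w hw a ha b hb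
  classical
  obtain ⟨-, -, -, h4, -, -⟩ := hmet V G ℓ hℓ
  have hspec := w.take_spec ha
  rw [← hspec, SimpleGraph.Walk.mem_support_append_iff] at hb
  have hlen : wlen ℓ (w.takeUntil a ha) + wlen ℓ (w.dropUntil a ha) = wdist G ℓ x y := by
    rw [← wlen_append, hspec, hw]
  rcases hb with hb | hb
  · have hspec2 := (w.takeUntil a ha).take_spec hb
    have hl2 : wlen ℓ ((w.takeUntil a ha).takeUntil b hb) +
        wlen ℓ ((w.takeUntil a ha).dropUntil b hb) = wlen ℓ (w.takeUntil a ha) := by
      rw [← wlen_append, hspec2]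
    have := three hmet hℓ ((w.takeUntil a ha).takeUntil b hb)
      ((w.takeUntil a ha).dropUntil b hb) (w.dropUntil a ha) (by rw [hl2, hlen])
    rw [h4 a b]
    exact this.trans (le_abs_self _)
  · have hspec2 := (w.dropUntil a ha).take_spec hb
    have hl2 : wlen ℓ ((w.dropUntil a ha).takeUntil b hb) +
        wlen ℓ ((w.dropUntil a ha).dropUntil b hb) = wlen ℓ (w.dropUntil a ha) := by
      rw [← wlen_append, hspec2]
    have := three hmet hℓ (w.takeUntil a ha) ((w.dropUntil a ha).takeUntil b hb)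
      ((w.dropUntil a ha).dropUntil b hb) (by rw [add_assoc, hl2, hlen])
    rw [abs_sub_comm]
    exact this.trans (le_abs_self _)

end Vale.Agent.P235A
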