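import Vale.Agent.P235A.Plan

/-! KER and BUMP: random signs. -/

namespace Vale.Agent.P235A

open MeasureTheory
open scoped ENNReal NNReal

universe u

namespace KerX

theorem ind_cases {X : Type u} (S : Set X) (x : X) : ind S x = 0 ∨ ind S x = 1 := by
  classical
  unfold ind
  by_cases h : x ∈ S
  · right
    simp [h]
  · left
    simp [h]

/-- the sign of a point with respect to a cut -/
noncomputable def sig {X : Type u} (S : Set X) (x : X) : ℝ := 1 - 2 * ind S x

theorem sig_cases {X : Type u} (S : Set X) (x : X) : sig S x = 1 ∨ sig S x = -1 := by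
  unfold sig
  rcases ind_cases S x with h | h
  · left
    rw [h]
    norm_num
  · right
    rw [h]
    norm_num

theorem one_cut {X : Type u} (S : Set X) (t : ℝ) (x y : X) :
    Real.exp (-(t * |ind S x - ind S y|)) =
      (1 + Real.exp (-t)) / 2 + (1 - (1 + Real.exp (-t)) / 2) * (sig S x * sig S y) := by
  unfold sig
  rcases ind_cases S x with h | h <;> rcases ind_cases S y with h' | h' <;> rw [h, h'] <;>
    norm_num <;> ring

theorem prod_cases {ι : Type u} (s : Finset ι) (f : ι → ℝ) (h : ∀ i, f i = 1 ∨ f i = -1) :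
    ∏ i ∈ s, f i = 1 ∨ ∏ i ∈ s, f i = -1 := by
  classical
  induction s using Finset.induction_on with
  | empty => simp
  | insert a s ha ih =>
    rw [Finset.prod_insert ha]
    rcases h a with h1 | h1 <;> rcases ih with h2 | h2 <;> rw [h1, h2] <;> norm_num

end KerX

open KerX

theorem ker : S_KER.{u} := by
  classical
  intro X _ D l hD hl
  obtain ⟨ι, _, w, S, hw, hD⟩ := hD
  set p : ι → ℝ := fun i => (1 + Real.exp (-(l * w i))) / 2 with hp
  have hp0 : ∀ i, 0 ≤ p i := fun i => by
    have := Real.exp_pos (-(l * w i))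
    simp only [hp]
    linarith
  have hp1 : ∀ i, 0 ≤ 1 - p i := fun i => by
    have : Real.exp (-(l * w i)) ≤ 1 := by
      rw [Real.exp_le_one_iff]
      have := mul_nonneg hl (hw i)
      linarith
    simp only [hp]
    linarith
  set c : Finset ι → ℝ := fun T => (∏ i ∈ T, p i) * ∏ i ∈ Finset.univ \ T, (1 - p i) with hc
  set s : Finset ι → X → ℝ := fun T x => ∏ i ∈ Finset.univ \ T, sig (S i) x with hs
  have hc0 : ∀ T, 0 ≤ c T := fun T =>
    mul_nonneg (Finset.prod_nonneg fun i _ => hp0 i) (Finset.prod_nonneg fun i _ => hp1 i)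
  have hc1 : ∑ T, c T = 1 := by
    have h := Finset.prod_add p (fun i => 1 - p i) (Finset.univ : Finset ι)
    rw [Finset.powerset_univ] at h
    simp only [add_sub_cancel, Finset.prod_const_one] at h
    rw [h]
  have hcs : ∀ x y, ∑ T, c T * (s T x * s T y) = Real.exp (-(l * D x y)) := by
    intro x y
    have h := Finset.prod_add p (fun i => (1 - p i) * (sig (S i) x * sig (S i) y))
      (Finset.univ : Finset ι)
    rw [Finset.powerset_univ] at h
    have h1 : ∑ T, c T * (s T x * s T y) =
        ∏ i, (p i + (1 - p i) * (sig (S i) x * sig (S i) y)) := by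
      rw [h]
      refine Finset.sum_congr rfl fun T _ => ?_
      simp only [hc, hs]
      rw [Finset.prod_mul_distrib, Finset.prod_mul_distrib]
      ring
    rw [h1, hD x y, Finset.mul_sum, ← Finset.sum_neg_distrib, Real.exp_sum]
    refine Finset.prod_congr rfl fun i _ => ?_
    have h2 := one_cut (S i) (l * w i) x y
    have h3 : l * (w i * |ind (S i) x - ind (S i) y|) =
        l * w i * |ind (S i) x - ind (S i) y| := by ring
    rw [h3, h2]
  let e := Fintype.equivFin (Finset ι)
  refine ⟨Fintype.card (Finset ι), fun k => c (e.symm k), fun k x => s (e.symm k) x,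
    fun k => hc0 _, ?_, ?_, ?_⟩
  · rw [Equiv.sum_comp e.symm c]
    exact hc1
  · intro k x
    exact prod_cases _ _ fun i => sig_cases (S i) x
  · intro x y
    rw [Equiv.sum_comp e.symm (fun T => c T * (s T x * s T y))]
    exact hcs x y

theorem bump' : S_KER.{u} → S_BUMP.{u} := by
  intro hK X _ D l ψ hD hl hψ
  obtain ⟨N, c, s, hc0, hc1, hs, hcs⟩ := hK X D l hD hl
  refine ⟨N, fun x i => c i * (ψ x * s i x), fun x y => ?_⟩
  have h1 : ∀ i, |c i * (ψ x * s i x) - c i * (ψ y * s i y)| =
      c i * |ψ x - ψ y| + min (ψ x) (ψ y) * (c i - c i * (s i x * s i y)) := by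
    intro i
    rw [← mul_sub, abs_mul, abs_of_nonneg (hc0 i)]
    have hx := hψ x
    have hy := hψ y
    rcases le_total (ψ x) (ψ y) with hxy | hxy
    · rw [min_eq_left hxy, abs_of_nonpos (by linarith : ψ x - ψ y ≤ 0)]
      rcases hs i x with h | h <;> rcases hs i y with h' | h' <;> rw [h, h']
      · rw [abs_of_nonpos (by linarith)]
        ring
      · rw [abs_of_nonneg (by linarith)]
        ring
      · rw [abs_of_nonpos (by linarith)]
        ring
      · rw [abs_of_nonneg (by linarith)]
        ring
    · rw [min_eq_right hxy, abs_of_nonneg (by linarith : 0 ≤ ψ x - ψ y)]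
      rcases hs i x with h | h <;> rcases hs i y with h' | h' <;> rw [h, h']
      · rw [abs_of_nonneg (by linarith)]
        ring
      · rw [abs_of_nonneg (by linarith)]
        ring
      · rw [abs_of_nonpos (by linarith)]
        ring
      · rw [abs_of_nonpos (by linarith)]
        ring
  rw [Finset.sum_congr rfl fun i _ => h1 i, Finset.sum_add_distrib, ← Finset.sum_mul, hc1,
    one_mul, ← Finset.mul_sum, Finset.sum_sub_distrib, hc1, hcs]

end Vale.Agent.P235A
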