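import Vale.Agent.P235A.Plan

/-!
# P235: basic facts on weighted distances
-/

namespace Vale.Agent.P235A

universe u v

namespace METRIC

variable {V : Type u} {G : SimpleGraph V} (ℓ : Sym2 V → ℝ)

lemma wlen_nonneg (hℓ : ∀ e ∈ G.edgeSet, 0 < ℓ e) {x y : V} (w : G.Walk x y) : 0 ≤ wlen ℓ w := by
  unfold wlen
  refine List.sum_nonneg ?_
  intro a ha
  obtain ⟨e, he, rfl⟩ := List.mem_map.mp ha
  exact (hℓ e (w.edges_subset_edgeSet he)).le

lemma wlen_append {x y z : V} (w : G.Walk x y) (w' : G.Walk y z) :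
    wlen ℓ (w.append w') = wlen ℓ w + wlen ℓ w' := by
  unfold wlen
  rw [SimpleGraph.Walk.edges_append, List.map_append, List.sum_append]

lemma wlen_reverse {x y : V} (w : G.Walk x y) : wlen ℓ w.reverse = wlen ℓ w := by
  unfold wlen
  rw [SimpleGraph.Walk.edges_reverse, List.map_reverse, List.sum_reverse]

lemma wdist_le (hℓ : ∀ e ∈ G.edgeSet, 0 < ℓ e) {x y : V} (w : G.Walk x y) :
    wdist G ℓ x y ≤ wlen ℓ w := by
  unfold wdist
  refine ciInf_le ⟨0, ?_⟩ w
  rintro _ ⟨w, rfl⟩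
  exact wlen_nonneg ℓ hℓ w

lemma wdist_nonneg (hℓ : ∀ e ∈ G.edgeSet, 0 < ℓ e) (x y : V) : 0 ≤ wdist G ℓ x y :=
  Real.iInf_nonneg fun w => wlen_nonneg ℓ hℓ w

lemma le_wdist {x y : V} (r : ℝ) (h : G.Reachable x y) (hr : ∀ w : G.Walk x y, r ≤ wlen ℓ w) :
    r ≤ wdist G ℓ x y := by
  obtain ⟨w⟩ := h
  have : Nonempty (G.Walk x y) := ⟨w⟩
  exact le_ciInf hr

lemma wdist_comm (x y : V) : wdist G ℓ x y = wdist G ℓ y x := by
  unfold wdist
  let e : G.Walk x y ≃ G.Walk y x :=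
    ⟨fun w => w.reverse, fun w => w.reverse, fun w => w.reverse_reverse,
      fun w => w.reverse_reverse⟩
  refine Equiv.iInf_congr e ?_
  intro w
  exact wlen_reverse ℓ w

end METRIC

open METRIC in
theorem metric : S_METRIC.{u} := by
  intro V G ℓ hℓ
  refine ⟨fun x y w => ⟨wlen_nonneg ℓ hℓ w, wdist_le ℓ hℓ w⟩, wdist_nonneg ℓ hℓ, ?_,
    wdist_comm ℓ, ?_, fun x y r h hr => le_wdist ℓ r h hr⟩
  · intro x
    refine le_antisymm ?_ (wdist_nonneg ℓ hℓ x x)
    have := wdist_le ℓ hℓ (SimpleGraph.Walk.nil : G.Walk x x)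
    simpa [wlen] using this
  · intro x y z hxy hyz
    have h1 : wdist G ℓ x z - wdist G ℓ y z ≤ wdist G ℓ x y := by
      refine le_wdist ℓ _ hxy fun w => ?_
      rw [sub_le_iff_le_add]
      have h2 : wdist G ℓ x z - wlen ℓ w ≤ wdist G ℓ y z := by
        refine le_wdist ℓ _ hyz fun w' => ?_
        have := wdist_le ℓ hℓ (w.append w')
        rw [wlen_append] at this
        linarith
      linarith
    linarith

end Vale.Agent.P235A
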