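import Vale.Agent.P235A.Plan2

/-!
# P235A, module MINW (helper21)
-/

namespace Vale.Agent.P235A

universe u

namespace MinwH

lemma sum_le {α : Type u} (f : α → ℝ) (l m : List α) (hl : l.Nodup) (hlm : ∀ e ∈ l, e ∈ m)
    (h0 : ∀ e ∈ m, 0 ≤ f e) : (l.map f).sum ≤ (m.map f).sum := by
  classical
  have h1 : (l.map f).sum = ∑ e ∈ l.toFinset, f e := by
    rw [List.sum_toFinset _ hl]
  have h2 : (m.map f).sum = ∑ e ∈ m.toFinset, m.count e • f e := by
    rw [Finset.sum_list_map_count]
  rw [h1, h2]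
  calc ∑ e ∈ l.toFinset, f e ≤ ∑ e ∈ m.toFinset, f e := by
        refine Finset.sum_le_sum_of_subset_of_nonneg ?_ ?_
        · intro e he
          rw [List.mem_toFinset] at he ⊢
          exact hlm e he
        · intro e he _
          exact h0 e (List.mem_toFinset.mp he)
    _ ≤ ∑ e ∈ m.toFinset, m.count e • f e := by
        refine Finset.sum_le_sum fun e he => ?_
        have h3 := List.mem_toFinset.mp he
        have h4 : 1 ≤ m.count e := List.one_le_count_iff.mpr h3
        have h5 : (1 : ℝ) ≤ (m.count e : ℝ) := by exact_mod_cast h4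
        rw [nsmul_eq_mul]
        exact le_mul_of_one_le_left (h0 e h3) h5

end MinwH

theorem minw (METRIC : S_METRIC.{u}) : S_MINW.{u} := by
  classical
  intro V _ G ℓ hℓ x y hxy
  obtain ⟨h1, -, -, -, -, h6⟩ := METRIC V G ℓ hℓ
  have : Nonempty (G.Path x y) := by
    obtain ⟨w⟩ := hxy
    exact ⟨w.toPath⟩
  obtain ⟨p, hp⟩ := Finite.exists_min fun p : G.Path x y => wlen ℓ (p : G.Walk x y)
  refine ⟨p, p.2, le_antisymm ?_ (h1 x y p).2⟩
  refine h6 x y _ hxy fun w => ?_
  refine (hp w.toPath).trans ?_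
  unfold wlen
  refine MinwH.sum_le ℓ _ _ ?_ ?_ ?_
  · exact w.toPath.2.isTrail.edges_nodup
  · intro e he
    exact w.edges_toPath_subset_edges he
  · intro e he
    exact (hℓ e (w.edges_subset_edgeSet he)).le

end Vale.Agent.P235A
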