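import Mathlib

/-!
# P235 (GNRS): adding finitely many apex vertices keeps L_1 distortion bounded

Theorem: c_1(G) <= 480 c_1(G - A) + |A| for every finite graph G and vertex set A.
Idea: with rho_a = d_G(., a), rho = min_a rho_a and D an L_1 metric on V - A with
d_{G-A} <= D <= c d_{G-A}, the cone metric min(D(u,v), rho u + rho v) embeds in L_1 with O(1)
distortion (CONE: dyadic bumps of rho times random signs with E s(u) s(v) = exp(-D(u,v)/2^j)), and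
d_G <= 2 min(d_{G-A}(u,v), rho u + rho v) + sum_a |rho_a u - rho_a v|.
-/

namespace Vale.Agent.P235A

open MeasureTheory
open scoped ENNReal NNReal

universe u v

/-- indicator of a finite set, real valued -/
noncomputable def ind {X : Type u} (S : Set X) (x : X) : ℝ := by
  classical exact if x ∈ S then 1 else 0

/-- nonnegative combination of cut semimetrics -/
def CutSum (X : Type u) [Fintype X] (D : X → X → ℝ) : Prop :=
  ∃ (ι : Type u) (_ : Fintype ι) (w : ι → ℝ) (S : ι → Set X), (∀ i, 0 ≤ w i) ∧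
    ∀ x y, D x y = ∑ i, w i * |ind (S i) x - ind (S i) y|

/-- finite-dimensional `l_1` semimetric -/
def IsL1 (X : Type u) (E : X → X → ℝ) : Prop :=
  ∃ (N : ℕ) (g : X → Fin N → ℝ), ∀ x y, E x y = ∑ i, |g x i - g y i|

/-- CUT: distances of finitely many points of `L_1(μ)` are cut sums.
Index: `Set X`; weight of `S`: the measure of `{(ω, t) | {x | t < f x ω} = S}` for `μ × volume`
(or: order the values for each ω; integrate the gaps). For `S = ∅, univ` take weight 0. -/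
def S_CUT : Prop := ∀ (X : Type u) [Fintype X] (Ω : Type) (_ : MeasurableSpace Ω) (μ : Measure Ω)
  (f : X → Lp ℝ 1 μ), CutSum X (fun x y => ‖f x - f y‖)

/-- REAL: `l_1^N` sits isometrically in some `L_1(μ)` (counting measure on `Fin N`). -/
def S_REAL : Prop := ∀ (X : Type u) (E : X → X → ℝ), IsL1 X E →
  ∃ (Ω : Type) (_ : MeasurableSpace Ω) (μ : Measure Ω) (f : X → Lp ℝ 1 μ),
    ∀ x y, ‖f x - f y‖ = E x y

/-- KER: random signs with covariance `exp (-l D)`: for one cut,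
`exp (-l w |ind x - ind y|) = p + (1-p) σ x σ y` with `σ = 1 - 2 ind`, `p = (1 + exp (-l w)) / 2`;
multiply over the cuts and expand (Finset.prod_add / Finset.prod_univ_sum). -/
def S_KER : Prop := ∀ (X : Type u) [Fintype X] (D : X → X → ℝ) (l : ℝ), CutSum X D → 0 ≤ l →
  ∃ (N : ℕ) (c : Fin N → ℝ) (s : Fin N → X → ℝ), (∀ i, 0 ≤ c i) ∧ ∑ i, c i = 1 ∧
    (∀ i x, s i x = 1 ∨ s i x = -1) ∧
    ∀ x y, ∑ i, c i * (s i x * s i y) = Real.exp (-(l * D x y))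

/-- BUMP: from KER; coordinates `c i * ψ x * s i x`. -/
def S_BUMP : Prop := ∀ (X : Type u) [Fintype X] (D : X → X → ℝ) (l : ℝ) (ψ : X → ℝ),
  CutSum X D → 0 ≤ l → (∀ x, 0 ≤ ψ x) →
  IsL1 X (fun x y => |ψ x - ψ y| + min (ψ x) (ψ y) * (1 - Real.exp (-(l * D x y))))

/-- the dyadic bump: `φ j t = 2^j * max 0 (min 1 (min (2 t/2^j - 1) (2 - t/(2*2^j))))`:
0 outside `(2^j/2, 4*2^j)`, `2^j` on `[2^j, 2*2^j]`, 2-Lipschitz -/
noncomputable def bump (j : ℤ) (t : ℝ) : ℝ :=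
  (2 : ℝ) ^ j * max 0 (min 1 (min (2 * (t / (2 : ℝ) ^ j) - 1) (2 - t / (2 : ℝ) ^ j / 2)))

/-- SCALE: properties of the dyadic bumps, for sums over `j ∈ Finset.Icc (-J) J`. -/
def S_SCALE : Prop :=
  (∀ j t, 0 ≤ bump j t ∧ bump j t ≤ (2 : ℝ) ^ j) ∧
  (∀ j s t, |bump j s - bump j t| ≤ 2 * |s - t|) ∧
  (∀ (J : ℤ) (s t : ℝ), 0 ≤ s → 0 ≤ t →
    ∑ j ∈ Finset.Icc (-J) J, |bump j s - bump j t| ≤ 12 * |s - t|) ∧
  (∀ (J : ℤ) (s t D : ℝ), 0 ≤ s → 0 ≤ t → 0 ≤ D →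
    ∑ j ∈ Finset.Icc (-J) J, min (bump j s) (bump j t) *
      (1 - Real.exp (-(((2 : ℝ) ^ j)⁻¹ * D))) ≤ 3 * min D (s + t)) ∧
  (∀ (J : ℤ) (s t D : ℝ), 0 ≤ t → t ≤ s → 0 < s → 0 ≤ D → (2 : ℝ) ^ (-J) ≤ s → s ≤ (2 : ℝ) ^ J →
    min D (s + t) / 16 ≤ ∑ j ∈ Finset.Icc (-J) J, (|bump j s - bump j t| +
      min (bump j s) (bump j t) * (1 - Real.exp (-(((2 : ℝ) ^ j)⁻¹ * D)))))

/-- CONE: the cone metric over an `L_1` metric. From BUMP and SCALE (J large; X finite). -/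
def S_CONE : Prop := ∀ (X : Type u) [Fintype X] (D : X → X → ℝ) (ρ : X → ℝ),
  CutSum X D → (∀ x, 0 ≤ ρ x) →
  ∃ E : X → X → ℝ, IsL1 X E ∧ ∀ x y,
    min (D x y) (ρ x + ρ y) / 16 ≤ E x y ∧
    E x y ≤ 12 * |ρ x - ρ y| + 3 * min (D x y) (ρ x + ρ y)

/-! ### Graph metrics -/

/-- length of a walk -/
noncomputable def wlen {V : Type u} {G : SimpleGraph V} (ℓ : Sym2 V → ℝ) {x y : V}
    (w : G.Walk x y) : ℝ := (w.edges.map ℓ).sum

/-- weighted shortest path distance (`0` if there is no walk) -/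
noncomputable def wdist {V : Type u} (G : SimpleGraph V) (ℓ : Sym2 V → ℝ) (x y : V) : ℝ :=
  ⨅ w : G.Walk x y, wlen ℓ w

/-- edge lengths restricted to an induced subgraph -/
def resLen {V : Type u} (s : Set V) (ℓ : Sym2 V → ℝ) : Sym2 s → ℝ :=
  fun e => ℓ (e.map Subtype.val)

/-- every component of `(G, ℓ)` embeds in an `L_1` space with distortion at most `C` -/
def EmbedsL1 {V : Type u} (G : SimpleGraph V) (ℓ : Sym2 V → ℝ) (C : ℝ) : Prop :=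
  ∃ (Ω : Type) (_ : MeasurableSpace Ω) (μ : Measure Ω) (f : V → Lp ℝ 1 μ), ∀ x y,
    G.Reachable x y → wdist G ℓ x y ≤ ‖f x - f y‖ ∧ ‖f x - f y‖ ≤ C * wdist G ℓ x y

/-- `c_1(G) ≤ C` -/
def C1AtMost {V : Type u} (G : SimpleGraph V) (C : ℝ) : Prop :=
  ∀ ℓ : Sym2 V → ℝ, (∀ e ∈ G.edgeSet, 0 < ℓ e) → EmbedsL1 G ℓ C

/-- METRIC: basic facts on `wdist`. -/
def S_METRIC : Prop := ∀ (V : Type u) (G : SimpleGraph V) (ℓ : Sym2 V → ℝ),
  (∀ e ∈ G.edgeSet, 0 < ℓ e) →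
  (∀ x y (w : G.Walk x y), 0 ≤ wlen ℓ w ∧ wdist G ℓ x y ≤ wlen ℓ w) ∧
  (∀ x y, 0 ≤ wdist G ℓ x y) ∧ (∀ x, wdist G ℓ x x = 0) ∧
  (∀ x y, wdist G ℓ x y = wdist G ℓ y x) ∧
  (∀ x y z, G.Reachable x y → G.Reachable y z →
    wdist G ℓ x z ≤ wdist G ℓ x y + wdist G ℓ y z) ∧
  (∀ x y (r : ℝ), G.Reachable x y → (∀ w : G.Walk x y, r ≤ wlen ℓ w) → r ≤ wdist G ℓ x y)

/-- DEL: deleting vertices. `H = G - A`. Walks of `G` either avoid `A` (then they are walks of `H`)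
or hit some `a ∈ A` (split there). -/
def S_DEL : Prop := ∀ (V : Type u) (G : SimpleGraph V) (ℓ : Sym2 V → ℝ) (s : Set V),
  (∀ e ∈ G.edgeSet, 0 < ℓ e) →
  (∀ x y : s, (G.induce s).Reachable x y → G.Reachable (x : V) y ∧
    wdist G ℓ x y ≤ wdist (G.induce s) (resLen s ℓ) x y) ∧
  (∀ (x y : s) (w : G.Walk (x : V) y),
    ((G.induce s).Reachable x y ∧ wdist (G.induce s) (resLen s ℓ) x y ≤ wlen ℓ w) ∨
    ∃ a : V, a ∉ s ∧ G.Reachable (x : V) a ∧ G.Reachable (y : V) a ∧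
      wdist G ℓ x a + wdist G ℓ y a ≤ wlen ℓ w)

/-- APEX: the closure theorem. -/
def S_APEX : Prop := ∀ (V : Type u) [Fintype V] (G : SimpleGraph V) (A : Finset V) (c : ℝ),
  1 ≤ c → C1AtMost (G.induce {x | x ∉ A}) c → C1AtMost G (480 * c + A.card)

/-- TREE: forests embed isometrically: `wdist = ∑_e ℓ e [x, y not connected in G - e]`. -/
def S_TREE : Prop := ∀ (V : Type u) [Fintype V] (G : SimpleGraph V), G.IsAcyclic → C1AtMost G 1

/-- SUM: 1-sums. `V = V1 ∪ V2`, `V1 ∩ V2 = {x}`, every edge inside `V1` or inside `V2`.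
Proof: `F u = (f1 (r1 u), f2 (r2 u))` with `r_i u = u` on `V_i` and `x` outside. -/
def S_SUM : Prop := ∀ (V : Type u) [Fintype V] (G : SimpleGraph V) (V1 V2 : Set V) (x : V) (c : ℝ),
  1 ≤ c → V1 ∪ V2 = Set.univ → V1 ∩ V2 = {x} →
  (∀ u v, G.Adj u v → (u ∈ V1 ∧ v ∈ V1) ∨ (u ∈ V2 ∧ v ∈ V2)) →
  C1AtMost (G.induce V1) c → C1AtMost (G.induce V2) c → C1AtMost G c

end Vale.Agent.P235A
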