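import Vale.Agent.P235A.Disj

/-! P235, second part: deleting a shortest path (or any set with a good 1-Lipschitz chart). -/

namespace Vale.Agent.P235A

open MeasureTheory

universe u

/-- GEO: on a shortest walk the distance from the start is an isometry. -/
def S_GEO : Prop := ∀ (V : Type u) (G : SimpleGraph V) (ℓ : Sym2 V → ℝ),
  (∀ e ∈ G.edgeSet, 0 < ℓ e) → ∀ (x y : V) (w : G.Walk x y), wlen ℓ w = wdist G ℓ x y →
  ∀ a ∈ w.support, ∀ b ∈ w.support, wdist G ℓ a b ≤ |wdist G ℓ x a - wdist G ℓ x b|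

/-- MINW: in a finite graph some path realises the distance. -/
def S_MINW : Prop := ∀ (V : Type u) [Fintype V] (G : SimpleGraph V) (ℓ : Sym2 V → ℝ),
  (∀ e ∈ G.edgeSet, 0 < ℓ e) → ∀ x y : V, G.Reachable x y →
  ∃ w : G.Walk x y, w.IsPath ∧ wlen ℓ w = wdist G ℓ x y

/-- CLOSE: deletion of a vertex set `A` that carries an `L_1` chart. -/
def S_CLOSE : Prop := ∀ (V : Type u) [Fintype V] (G : SimpleGraph V) (ℓ : Sym2 V → ℝ)
  (A : Finset V) (c L : ℝ) (Γ : V → V → ℝ), (∀ e ∈ G.edgeSet, 0 < ℓ e) → 1 ≤ c → 0 ≤ L →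
  IsL1 V Γ → (∀ x y, G.Reachable x y → Γ x y ≤ L * wdist G ℓ x y) →
  (∀ a ∈ A, ∀ b ∈ A, G.Reachable a b → wdist G ℓ a b ≤ Γ a b) →
  EmbedsL1 (G.induce {x | x ∉ A}) (resLen {x | x ∉ A} ℓ) c →
  EmbedsL1 G ℓ (242 * (1 + L) * c)

end Vale.Agent.P235A
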