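import Vale.Agent.P235A.Plan

/-! REAL: finite dimensional `l_1` inside `L_1`. -/

namespace Vale.Agent.P235A

open MeasureTheory
open scoped ENNReal NNReal

universe u

theorem real : S_REAL.{u} := by
  intro X E hE
  obtain ⟨N, g, hg⟩ := hE
  have hint : ∀ x, Integrable (g x) (Measure.count : Measure (Fin N)) := fun x =>
    Integrable.of_finite
  refine ⟨Fin N, inferInstance, Measure.count, fun x => (hint x).toL1 (g x), fun x y => ?_⟩
  have h1 : (hint x).toL1 (g x) - (hint y).toL1 (g y) =
      ((hint x).sub (hint y)).toL1 (g x - g y) := (Integrable.toL1_sub _ _ _ _).symm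
  rw [h1]
  have h2 := L1.norm_of_fun_eq_integral_norm (f := g x - g y) ((hint x).sub (hint y))
  rw [h2, integral_count, hg x y]
  rfl

end Vale.Agent.P235A
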