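import Vale.Agent.P235A.Plan

/-!
# P235A, SCALE: dyadic bumps
-/

namespace Vale.Agent.P235A

namespace ScaleX

/-- the normalised bump -/
noncomputable def hh (x : ℝ) : ℝ := max 0 (min 1 (min (2 * x - 1) (2 - x / 2)))

theorem bump_eq (j : ℤ) (t : ℝ) : bump j t = (2 : ℝ) ^ j * hh (t / (2 : ℝ) ^ j) := rfl

theorem hh_nonneg (x : ℝ) : 0 ≤ hh x := le_max_left _ _

theorem hh_le (x : ℝ) : hh x ≤ 1 := max_le zero_le_one (min_le_left _ _)

theorem hh_lip (x y : ℝ) : |hh x - hh y| ≤ 2 * |x - y| := by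
  have h1 := abs_max_sub_max_le_max (0 : ℝ) (min 1 (min (2 * x - 1) (2 - x / 2))) 0
    (min 1 (min (2 * y - 1) (2 - y / 2)))
  have h2 := abs_min_sub_min_le_max (1 : ℝ) (min (2 * x - 1) (2 - x / 2)) 1
    (min (2 * y - 1) (2 - y / 2))
  have h3 := abs_min_sub_min_le_max (2 * x - 1) (2 - x / 2) (2 * y - 1) (2 - y / 2)
  have h4 : |2 * x - 1 - (2 * y - 1)| = 2 * |x - y| := by
    rw [show 2 * x - 1 - (2 * y - 1) = 2 * (x - y) by ring, abs_mul, abs_two]
  have h5 : |2 - x / 2 - (2 - y / 2)| ≤ 2 * |x - y| := by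
    rw [show 2 - x / 2 - (2 - y / 2) = -(1 / 2) * (x - y) by ring, abs_mul]
    have : |(-(1 / 2) : ℝ)| = 1 / 2 := by norm_num
    rw [this]
    nlinarith [abs_nonneg (x - y)]
  have h6 : (0 : ℝ) ≤ 2 * |x - y| := by positivity
  rw [h4] at h3
  have h7 := h3.trans (max_le le_rfl h5)
  rw [sub_self, abs_zero] at h2
  have h8 := h2.trans (max_le h6 h7)
  rw [sub_self, abs_zero] at h1
  exact h1.trans (max_le h6 h8)

theorem two_pos' (j : ℤ) : (0 : ℝ) < (2 : ℝ) ^ j := zpow_pos two_pos j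

theorem bump_nonneg (j : ℤ) (t : ℝ) : 0 ≤ bump j t := by
  rw [bump_eq]; exact mul_nonneg (two_pos' j).le (hh_nonneg _)

theorem bump_le (j : ℤ) (t : ℝ) : bump j t ≤ (2 : ℝ) ^ j := by
  rw [bump_eq]; exact mul_le_of_le_one_right (two_pos' j).le (hh_le _)

theorem bump_lip (j : ℤ) (s t : ℝ) : |bump j s - bump j t| ≤ 2 * |s - t| := by
  have hB := two_pos' j
  rw [bump_eq, bump_eq, ← mul_sub, abs_mul, abs_of_pos hB]
  have h1 := mul_le_mul_of_nonneg_left (hh_lip (s / (2 : ℝ) ^ j) (t / (2 : ℝ) ^ j)) hB.le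
  refine h1.trans (le_of_eq ?_)
  rw [← sub_div, abs_div, abs_of_pos hB]
  field_simp

/-- where the bump is nonzero -/
theorem bump_supp (j : ℤ) (t : ℝ) (h : bump j t ≠ 0) :
    (2 : ℝ) ^ j < 2 * t ∧ t < 4 * (2 : ℝ) ^ j := by
  have hB := two_pos' j
  have h1 : 0 < hh (t / (2 : ℝ) ^ j) := by
    refine lt_of_le_of_ne (hh_nonneg _) fun h' => h ?_
    rw [bump_eq, ← h', mul_zero]
  rw [hh, lt_max_iff] at h1
  rcases h1 with h1 | h1
  · exact absurd h1 (lt_irrefl _)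
  · rw [lt_min_iff, lt_min_iff] at h1
    obtain ⟨-, h2, h3⟩ := h1
    constructor
    · have h4 : 1 < 2 * (t / (2 : ℝ) ^ j) := by linarith
      rw [← mul_div_assoc, lt_div_iff₀ hB] at h4
      linarith
    · have h4 : t / (2 : ℝ) ^ j < 4 := by linarith
      rwa [div_lt_iff₀ hB] at h4

theorem supp (s : ℝ) (hs : 0 ≤ s) : ∃ S : Finset ℤ, S.card ≤ 3 ∧ ∀ j, j ∉ S → bump j s = 0 := by
  rcases hs.eq_or_lt with rfl | hs
  · refine ⟨∅, by simp, fun j _ => ?_⟩
    by_contra h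
    have := (bump_supp j 0 h).1
    have h2 := two_pos' j
    linarith
  · set k := Int.log 2 s with hk
    have h1 : ((2 : ℕ) : ℝ) ^ k ≤ s := Int.zpow_log_le_self (by norm_num) hs
    have h2 : s < ((2 : ℕ) : ℝ) ^ (k + 1) := Int.lt_zpow_succ_log_self (by norm_num) s
    norm_num at h1 h2
    refine ⟨Finset.Icc (k - 1) (k + 1), ?_, fun j hj => ?_⟩
    · rw [Int.card_Icc]
      omega
    · by_contra h
      obtain ⟨h3, h4⟩ := bump_supp j s h
      refine hj (Finset.mem_Icc.mpr ⟨?_, ?_⟩)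
      · have h5 : (2 : ℝ) ^ k < (2 : ℝ) ^ (j + 2) := by
          rw [zpow_add₀ two_ne_zero]
          norm_num
          linarith
        have h6 := (zpow_lt_zpow_iff_right₀ (one_lt_two (α := ℝ))).mp h5
        omega
      · have h5 : (2 : ℝ) ^ j < (2 : ℝ) ^ (k + 1 + 1) := by
          rw [zpow_add₀ two_ne_zero (k + 1) 1]
          norm_num
          linarith
        have h6 := (zpow_lt_zpow_iff_right₀ (one_lt_two (α := ℝ))).mp h5
        omega

theorem sum_le_card (I S : Finset ℤ) (f : ℤ → ℝ) (c : ℝ) (n : ℕ) (hc : 0 ≤ c)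
    (hS : S.card ≤ n) (h0 : ∀ j, j ∉ S → f j = 0) (hf : ∀ j, f j ≤ c) :
    ∑ j ∈ I, f j ≤ n * c := by
  classical
  have h1 : ∑ j ∈ I, f j = ∑ j ∈ I.filter (· ∈ S), f j := by
    refine (Finset.sum_filter_of_ne fun j _ hj => ?_).symm
    by_contra h
    exact hj (h0 j h)
  rw [h1]
  refine (Finset.sum_le_sum fun j _ => hf j).trans ?_
  rw [Finset.sum_const, nsmul_eq_mul]
  refine mul_le_mul_of_nonneg_right ?_ hc
  have h2 : (I.filter (· ∈ S)).card ≤ S.card :=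
    Finset.card_le_card fun j hj => (Finset.mem_filter.mp hj).2
  exact_mod_cast h2.trans hS

theorem exp_low (x : ℝ) (hx : 0 ≤ x) : min 1 x / 2 ≤ 1 - Real.exp (-x) := by
  have h1 : Real.exp (-x) ≤ 1 / (1 + x) := by
    rw [Real.exp_neg, ← one_div]
    refine one_div_le_one_div_of_le (by linarith) ?_
    linarith [Real.add_one_le_exp x]
  rcases le_total 1 x with h | h
  · rw [min_eq_left h]
    have h2 : 1 / (1 + x) ≤ 1 / 2 := one_div_le_one_div_of_le (by norm_num) (by linarith)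
    linarith
  · rw [min_eq_right h]
    have h2 : 1 / (1 + x) ≤ 1 - x / 2 := by
      rw [div_le_iff₀ (by linarith)]
      nlinarith
    linarith

theorem one_sub_exp_nonneg (x : ℝ) (hx : 0 ≤ x) : 0 ≤ 1 - Real.exp (-x) := by
  have := Real.exp_le_one_iff.mpr (neg_nonpos.mpr hx)
  linarith

theorem one_sub_exp_le (x : ℝ) : 1 - Real.exp (-x) ≤ x := by
  linarith [Real.add_one_le_exp (-x)]

theorem part4 (J : ℤ) (s t D : ℝ) (hs : 0 ≤ s) (ht : 0 ≤ t) (hD : 0 ≤ D) :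
    ∑ j ∈ Finset.Icc (-J) J, min (bump j s) (bump j t) *
      (1 - Real.exp (-(((2 : ℝ) ^ j)⁻¹ * D))) ≤ 3 * min D (s + t) := by
  obtain ⟨S, hS, h0⟩ := supp s hs
  have hm : 0 ≤ min D (s + t) := le_min hD (by linarith)
  have := sum_le_card (Finset.Icc (-J) J) S (fun j => min (bump j s) (bump j t) *
      (1 - Real.exp (-(((2 : ℝ) ^ j)⁻¹ * D)))) (min D (s + t)) 3 hm hS ?_ ?_
  · exact_mod_cast this
  · intro j hj
    show min (bump j s) (bump j t) * _ = 0
    rw [h0 j hj, min_eq_left (bump_nonneg j t), zero_mul]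
  · intro j
    show min (bump j s) (bump j t) * (1 - Real.exp (-(((2 : ℝ) ^ j)⁻¹ * D))) ≤ _
    have hB := two_pos' j
    have hx : 0 ≤ ((2 : ℝ) ^ j)⁻¹ * D := by positivity
    have e0 := one_sub_exp_nonneg _ hx
    by_cases hz : bump j s = 0 ∨ bump j t = 0
    · have h1 : min (bump j s) (bump j t) ≤ 0 := by
        rcases hz with h | h
        · rw [← h]; exact min_le_left _ _
        · rw [← h]; exact min_le_right _ _
      exact (mul_nonpos_of_nonpos_of_nonneg h1 e0).trans hm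
    · push Not at hz
      obtain ⟨z1, z2⟩ := hz
      have a1 := (bump_supp j s z1).1
      have a2 := (bump_supp j t z2).1
      have b1 : min (bump j s) (bump j t) ≤ (2 : ℝ) ^ j := (min_le_left _ _).trans (bump_le j s)
      have b0 : 0 ≤ min (bump j s) (bump j t) := le_min (bump_nonneg j s) (bump_nonneg j t)
      refine le_min ?_ ?_
      · calc min (bump j s) (bump j t) * (1 - Real.exp (-(((2 : ℝ) ^ j)⁻¹ * D)))
            ≤ (2 : ℝ) ^ j * (((2 : ℝ) ^ j)⁻¹ * D) :=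
              mul_le_mul b1 (one_sub_exp_le _) e0 hB.le
          _ = D := by rw [← mul_assoc, mul_inv_cancel₀ hB.ne', one_mul]
      · calc min (bump j s) (bump j t) * (1 - Real.exp (-(((2 : ℝ) ^ j)⁻¹ * D)))
            ≤ (2 : ℝ) ^ j * 1 :=
              mul_le_mul b1 (by linarith [Real.exp_pos (-(((2 : ℝ) ^ j)⁻¹ * D))]) e0 hB.le
          _ ≤ s + t := by linarith

theorem part5 (J : ℤ) (s t D : ℝ) (ht : 0 ≤ t) (hts : t ≤ s) (hs : 0 < s) (hD : 0 ≤ D)
    (h1 : (2 : ℝ) ^ (-J) ≤ s) (h2 : s ≤ (2 : ℝ) ^ J) :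
    min D (s + t) / 16 ≤ ∑ j ∈ Finset.Icc (-J) J, (|bump j s - bump j t| +
      min (bump j s) (bump j t) * (1 - Real.exp (-(((2 : ℝ) ^ j)⁻¹ * D)))) := by
  set k := Int.log 2 s with hk
  have k1 : ((2 : ℕ) : ℝ) ^ k ≤ s := Int.zpow_log_le_self (by norm_num) hs
  have k2 : s < ((2 : ℕ) : ℝ) ^ (k + 1) := Int.lt_zpow_succ_log_self (by norm_num) s
  norm_num at k1 k2
  have hkJ : k ∈ Finset.Icc (-J) J := by
    rw [Finset.mem_Icc]
    constructor
    · have h5 : (2 : ℝ) ^ (-J) < (2 : ℝ) ^ (k + 1) := lt_of_le_of_lt h1 k2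
      have h6 := (zpow_lt_zpow_iff_right₀ (one_lt_two (α := ℝ))).mp h5
      omega
    · exact (zpow_le_zpow_iff_right₀ (one_lt_two (α := ℝ))).mp (k1.trans h2)
  have hnn : ∀ j ∈ Finset.Icc (-J) J, 0 ≤ |bump j s - bump j t| +
      min (bump j s) (bump j t) * (1 - Real.exp (-(((2 : ℝ) ^ j)⁻¹ * D))) := by
    intro j _
    have hB := two_pos' j
    have e0 := one_sub_exp_nonneg (((2 : ℝ) ^ j)⁻¹ * D) (by positivity)
    have b0 : 0 ≤ min (bump j s) (bump j t) := le_min (bump_nonneg j s) (bump_nonneg j t)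
    positivity
  refine le_trans ?_ (Finset.single_le_sum hnn hkJ)
  have hB := two_pos' k
  have hx : 0 ≤ ((2 : ℝ) ^ k)⁻¹ * D := by positivity
  have hbs : bump k s = (2 : ℝ) ^ k := by
    rw [bump_eq, hh]
    have x1 : 1 ≤ s / (2 : ℝ) ^ k := by rw [le_div_iff₀ hB]; linarith
    have x2 : s / (2 : ℝ) ^ k ≤ 2 := by
      rw [div_le_iff₀ hB]
      rw [zpow_add₀ two_ne_zero] at k2
      norm_num at k2
      linarith
    have x3 : min 1 (min (2 * (s / (2 : ℝ) ^ k) - 1) (2 - s / (2 : ℝ) ^ k / 2)) = 1 :=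
      min_eq_left (le_min (by linarith) (by linarith))
    rw [x3, max_eq_right zero_le_one, mul_one]
  have hbt := bump_le k t
  have hbt0 := bump_nonneg k t
  rw [hbs, min_eq_right hbt, abs_of_nonneg (by linarith)]
  have e1 := exp_low _ hx
  have e2 : 0 < Real.exp (-(((2 : ℝ) ^ k)⁻¹ * D)) := Real.exp_pos _
  have h3 : (2 : ℝ) ^ k * (1 - Real.exp (-(((2 : ℝ) ^ k)⁻¹ * D))) ≤
      (2 : ℝ) ^ k - bump k t + bump k t * (1 - Real.exp (-(((2 : ℝ) ^ k)⁻¹ * D))) := by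
    nlinarith
  refine le_trans ?_ h3
  have h4 : (2 : ℝ) ^ k * (min 1 (((2 : ℝ) ^ k)⁻¹ * D) / 2) ≤
      (2 : ℝ) ^ k * (1 - Real.exp (-(((2 : ℝ) ^ k)⁻¹ * D))) :=
    mul_le_mul_of_nonneg_left e1 hB.le
  refine le_trans ?_ h4
  have h5 : (2 : ℝ) ^ k * (min 1 (((2 : ℝ) ^ k)⁻¹ * D) / 2) = min ((2 : ℝ) ^ k) D / 2 := by
    rw [← mul_div_assoc, mul_min_of_nonneg _ _ hB.le, mul_one, ← mul_assoc,
      mul_inv_cancel₀ hB.ne', one_mul]
  rw [h5]
  have h6 : s + t ≤ 4 * (2 : ℝ) ^ k := by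
    rw [zpow_add₀ two_ne_zero] at k2
    norm_num at k2
    linarith
  rcases le_total ((2 : ℝ) ^ k) D with h | h
  · rw [min_eq_left h]
    have : min D (s + t) ≤ s + t := min_le_right _ _
    linarith
  · rw [min_eq_right h]
    have : min D (s + t) ≤ D := min_le_left _ _
    linarith

end ScaleX

open ScaleX in
theorem scale : S_SCALE := by
  classical
  refine ⟨fun j t => ⟨bump_nonneg j t, bump_le j t⟩, bump_lip, ?_, part4, part5⟩
  intro J s t hs ht
  obtain ⟨S, hS, h0⟩ := supp s hs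
  obtain ⟨T, hT, h0'⟩ := supp t ht
  have hc : 0 ≤ 2 * |s - t| := by positivity
  have := sum_le_card (Finset.Icc (-J) J) (S ∪ T) (fun j => |bump j s - bump j t|)
    (2 * |s - t|) 6 hc ((Finset.card_union_le _ _).trans (by omega)) ?_ (fun j => bump_lip j s t)
  · refine this.trans (le_of_eq ?_)
    push_cast
    ring
  · intro j hj
    rw [Finset.mem_union, not_or] at hj
    show |bump j s - bump j t| = 0
    rw [h0 j hj.1, h0' j hj.2, sub_self, abs_zero]

end Vale.Agent.P235A
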