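import Vale.Agent.P235A.Close

namespace Vale.Agent.P235A

open MeasureTheory

universe u

/-- the clipped distance function from `R`: `1` on `R`, `0` at distance `≥ δ` -/
theorem clip_lip (δ a b : ℝ) (hδ : 0 < δ) : |max 0 (1 - a / δ) - max 0 (1 - b / δ)| ≤ |a - b| / δ := by
  have h1 : |max 0 (1 - a / δ) - max 0 (1 - b / δ)| ≤ |(1 - a / δ) - (1 - b / δ)| := by
    have := abs_max_sub_max_le_max 0 (1 - a / δ) 0 (1 - b / δ)
    simpa using this
  have h2 : (1 - a / δ) - (1 - b / δ) = -((a - b) / δ) := by ring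
  rw [h2, abs_neg, abs_div, abs_of_pos hδ] at h1
  exact h1

/-- extension of a cut of the `k`-point set `S` to a Lipschitz function; `P` = the set of points
reachable from `S` -/
theorem cut_extend {V : Type u} [Fintype V] (d : V → V → ℝ) (P : Set V)
    (hnn : ∀ x y, 0 ≤ d x y) (hself : ∀ x, d x x = 0)
    (hpos : ∀ x ∈ P, ∀ y ∈ P, x ≠ y → 0 < d x y)
    (htri : ∀ x ∈ P, ∀ y ∈ P, ∀ z ∈ P, d x z ≤ d x y + d y z)
    (hsymm : ∀ x y, d x y = d y x)
    (S R : Finset V) (hSP : ∀ x ∈ S, x ∈ P) (hRS : R ⊆ S) :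
    ∃ h : V → ℝ, (∀ x ∈ R, h x = 1) ∧ (∀ x ∈ S, x ∉ R → h x = 0) ∧
      ((∀ x ∈ P, ∀ y ∈ P, h x = h y) ∨ ∃ a ∈ R, ∃ b ∈ S, b ∉ R ∧
        ∀ x ∈ P, ∀ y ∈ P, |h x - h y| ≤ d x y / d a b) := by
  classical
  by_cases hR : R = ∅
  · refine ⟨fun _ => 0, ?_, fun _ _ _ => rfl, Or.inl fun _ _ _ _ => rfl⟩
    intro x hx; rw [hR] at hx; simp at hx
  by_cases hSR : S = R
  · refine ⟨fun _ => 1, fun _ _ => rfl, ?_, Or.inl fun _ _ _ _ => rfl⟩
    intro x hx hxR; rw [hSR] at hx; exact absurd hx hxR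
  have hRne : R.Nonempty := Finset.nonempty_iff_ne_empty.2 hR
  have hQne : (S \ R).Nonempty := by
    rw [Finset.sdiff_nonempty]
    intro h
    exact hSR (Finset.Subset.antisymm h hRS)
  -- nearest pair
  obtain ⟨p, hp, hpmin⟩ := Finset.exists_min_image (R ×ˢ (S \ R)) (fun p => d p.1 p.2)
    (hRne.product hQne)
  rw [Finset.mem_product, Finset.mem_sdiff] at hp
  set δ : ℝ := d p.1 p.2 with hδ
  have hp1 : p.1 ∈ P := hSP _ (hRS hp.1)
  have hp2 : p.2 ∈ P := hSP _ hp.2.1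
  have hne : p.1 ≠ p.2 := fun h => hp.2.2 (h ▸ hp.1)
  have hδ0 : 0 < δ := hpos _ hp1 _ hp2 hne
  set r : V → ℝ := fun x => R.inf' hRne (fun a => d x a) with hr
  refine ⟨fun x => max 0 (1 - r x / δ), ?_, ?_, Or.inr ⟨p.1, hp.1, p.2, hp.2.1, hp.2.2, ?_⟩⟩
  · intro x hx
    have h1 : r x = 0 := by
      apply le_antisymm
      · calc r x ≤ d x x := Finset.inf'_le _ hx
          _ = 0 := hself x
      · exact Finset.le_inf' _ _ fun a _ => hnn x a
    simp only [h1, zero_div, sub_zero]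
    norm_num
  · intro x hx hxR
    have h1 : δ ≤ r x := by
      apply Finset.le_inf'
      intro a ha
      have := hpmin (a, x) (Finset.mem_product.2 ⟨ha, Finset.mem_sdiff.2 ⟨hx, hxR⟩⟩)
      rw [hsymm x a]
      exact this
    have h2 : 1 ≤ r x / δ := by rwa [le_div_iff₀ hδ0, one_mul]
    exact max_eq_left (by linarith)
  · intro x hx y hy
    have hr1 : ∀ x ∈ P, ∀ y ∈ P, r x ≤ r y + d x y := by
      intro x hx y hy
      obtain ⟨a, ha, hae⟩ := Finset.exists_mem_eq_inf' hRne (fun a => d y a)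
      have h1 : r x ≤ d x a := Finset.inf'_le _ ha
      have h2 := htri x hx y hy a (hSP a (hRS ha))
      have h3 : r y = d y a := hae
      linarith
    have h1 := hr1 x hx y hy
    have h2 := hr1 y hy x hx
    rw [hsymm y x] at h2
    refine (clip_lip δ (r x) (r y) hδ0).trans ?_
    apply div_le_div_of_nonneg_right _ hδ0.le
    rw [abs_le]
    constructor <;> linarith

end Vale.Agent.P235A
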