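import Vale.Agent.P235A.Star

namespace Vale.Agent.P235A

open MeasureTheory

universe u

theorem wlen_cons {V : Type u} {G : SimpleGraph V} (ℓ : Sym2 V → ℝ) {x y z : V} (h : G.Adj x y)
    (w : G.Walk y z) : wlen ℓ (SimpleGraph.Walk.cons h w) = ℓ s(x, y) + wlen ℓ w := by
  simp [wlen]

theorem wdist_pos (hMET : S_METRIC.{u}) (hMIN : S_MINW.{u}) (V : Type u) [Fintype V]
    (G : SimpleGraph V) (ℓ : Sym2 V → ℝ) (hℓ : ∀ e ∈ G.edgeSet, 0 < ℓ e) (x y : V)
    (hxy : G.Reachable x y) (hne : x ≠ y) : 0 < wdist G ℓ x y := by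
  obtain ⟨w, _, hw⟩ := hMIN V G ℓ hℓ x y hxy
  rw [← hw]
  cases w with
  | nil => exact absurd rfl hne
  | @cons _ v _ h w' =>
    rw [wlen_cons]
    have h1 := hℓ s(x, v) h
    have h2 := ((hMET V G ℓ hℓ).1 v y w').1
    linarith

/-- the vertices of `V0` adjacent to the component `K` of `G - V0` -/
noncomputable def attach {V : Type u} [Fintype V] (G : SimpleGraph V) (V0 : Finset V)
    (K : (G.induce {x | x ∉ V0}).ConnectedComponent) : Finset V := by
  classical
  exact V0.filter (fun v => ∃ z : {x : V | x ∉ V0},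
    (G.induce {x | x ∉ V0}).connectedComponentMk z = K ∧ G.Adj z v)

theorem star (hCUT : S_CUT.{u}) (hMET : S_METRIC.{u}) (hMIN : S_MINW.{u})
    (hCLOSE : S_CLOSE.{u}) (V : Type u) [Fintype V] (G : SimpleGraph V) (ℓ : Sym2 V → ℝ)
    (V0 : Finset V) (k : ℕ) (c0 c : ℝ) (hℓ : ∀ e ∈ G.edgeSet, 0 < ℓ e) (hc0 : 1 ≤ c0)
    (hc : 1 ≤ c)
    (hatt : ∀ K : (G.induce {x | x ∉ V0}).ConnectedComponent, (attach G V0 K).card ≤ k)
    (hf0 : ∃ (Ω : Type) (_ : MeasurableSpace Ω) (μ : Measure Ω) (f : V0 → Lp ℝ 1 μ),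
      ∀ x y : V0, G.Reachable (x : V) y → wdist G ℓ x y ≤ ‖f x - f y‖ ∧
        ‖f x - f y‖ ≤ c0 * wdist G ℓ x y)
    (hH : EmbedsL1 (G.induce {x | x ∉ V0}) (resLen {x | x ∉ V0} ℓ) c) :
    EmbedsL1 G ℓ (242 * (1 + 2 ^ k * c0) * c) := by
  classical
  obtain ⟨hwl, hnn, hself, hsymm, htri, hinf⟩ := hMET V G ℓ hℓ
  obtain ⟨Ω, m, μ, f, hf⟩ := hf0
  obtain ⟨ι, _, w, T, hw, hD⟩ := hCUT V0 Ω m μ f
  simp only at hD
  -- the part of the graph seen from a component
  set P : (G.induce {x | x ∉ V0}).ConnectedComponent → Set V := fun K =>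
    {z | ∃ t : {x : V | x ∉ V0}, (G.induce {x | x ∉ V0}).connectedComponentMk t = K ∧
      G.Reachable (t : V) z} with hP
  have hPP : ∀ K, ∀ x ∈ P K, ∀ y ∈ P K, G.Reachable x y := by
    rintro K x ⟨t, ht, htx⟩ y ⟨t', ht', hty⟩
    have h1 : (G.induce {x | x ∉ V0}).Reachable t t' :=
      SimpleGraph.ConnectedComponent.eq.1 (ht.trans ht'.symm)
    have h2 : G.Reachable (t : V) t' := by
      obtain ⟨w⟩ := h1
      exact ⟨w.map (SimpleGraph.Embedding.induce _).toHom⟩
    exact htx.symm.trans (h2.trans hty)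
  have hmemS : ∀ K v, v ∈ attach G V0 K ↔ v ∈ V0 ∧ ∃ z : {x : V | x ∉ V0},
      (G.induce {x | x ∉ V0}).connectedComponentMk z = K ∧ G.Adj z v := by
    intro K v
    unfold attach
    rw [Finset.mem_filter]
  have hSP : ∀ K, ∀ x ∈ attach G V0 K, x ∈ P K := by
    intro K x hx
    rw [hmemS] at hx
    obtain ⟨_, z, hz, hadj⟩ := hx
    exact ⟨z, hz, hadj.reachable⟩
  have hext : ∀ K (R : Finset V), R ⊆ attach G V0 K → ∃ h : V → ℝ, (∀ x ∈ R, h x = 1) ∧
      (∀ x ∈ attach G V0 K, x ∉ R → h x = 0) ∧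
      ((∀ x ∈ P K, ∀ y ∈ P K, h x = h y) ∨ ∃ a ∈ R, ∃ b ∈ attach G V0 K, b ∉ R ∧
        ∀ x ∈ P K, ∀ y ∈ P K, |h x - h y| ≤ wdist G ℓ x y / wdist G ℓ a b) := by
    intro K R hR
    exact cut_extend (wdist G ℓ) (P K) hnn hself
      (fun x hx y hy hne => wdist_pos hMET hMIN V G ℓ hℓ x y (hPP K x hx y hy) hne)
      (fun x hx y hy z hz => htri x y z (hPP K x hx y hy) (hPP K y hy z hz)) hsymm
      (attach G V0 K) R (hSP K) hR
  choose H hH1 hH0 hHl using hext
  set R : ι → (G.induce {x | x ∉ V0}).ConnectedComponent → Finset V := fun i K =>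
    (attach G V0 K).filter (fun v => ∃ hv : v ∈ V0, (⟨v, hv⟩ : V0) ∈ T i) with hR
  have hRS : ∀ i K, R i K ⊆ attach G V0 K := fun i K => Finset.filter_subset _ _
  set h : ι → V → ℝ := fun i u => if hu : u ∈ V0 then ind (T i) ⟨u, hu⟩ else
    H ((G.induce {x | x ∉ V0}).connectedComponentMk ⟨u, hu⟩) (R i _) (hRS i _) u with hh
  set Γ : V → V → ℝ := fun x y => ∑ i, w i * |h i x - h i y| with hΓ
  have hΓ1 : IsL1 V Γ := by
    refine IsL1.of_fintype (fun x i => w i * h i x) ?_
    intro x y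
    refine Finset.sum_congr rfl fun i _ => ?_
    rw [← mul_sub, abs_mul, abs_of_nonneg (hw i)]
  have hΓ0 : ∀ (x y : V) (hx : x ∈ V0) (hy : y ∈ V0), Γ x y = ‖f ⟨x, hx⟩ - f ⟨y, hy⟩‖ := by
    intro x y hx hy
    rw [hD]
    refine Finset.sum_congr rfl fun i _ => ?_
    simp only [hh, dif_pos hx, dif_pos hy]
  have h2k : (1 : ℝ) ≤ 2 ^ k := one_le_pow₀ (by norm_num)
  have hL0 : 0 < 2 ^ k * c0 := by positivity
  -- the bound inside one piece
  have hpiece : ∀ K, ∀ x ∈ P K, ∀ y ∈ P K,
      (∀ i, h i x = H K (R i K) (hRS i K) x) → (∀ i, h i y = H K (R i K) (hRS i K) y) →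
      Γ x y ≤ 2 ^ k * c0 * wdist G ℓ x y := by
    intro K x hx y hy hex hey
    set F : Finset V → ℝ := fun Q => if hQ : Q ⊆ attach G V0 K then
      |H K Q hQ x - H K Q hQ y| else 0 with hF
    have e1 : Γ x y = ∑ i, w i * F (R i K) := by
      refine Finset.sum_congr rfl fun i _ => ?_
      simp only [hF, dif_pos (hRS i K), hex i, hey i]
    have e2 : ∑ i, w i * F (R i K) =
        ∑ Q ∈ (attach G V0 K).powerset, ∑ i ∈ Finset.univ.filter (fun i => R i K = Q),
          w i * F (R i K) :=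
      (Finset.sum_fiberwise_of_maps_to
        (fun i _ => Finset.mem_powerset.2 (hRS i K)) _).symm
    rw [e1, e2]
    have e3 : ∀ Q ∈ (attach G V0 K).powerset,
        ∑ i ∈ Finset.univ.filter (fun i => R i K = Q), w i * F (R i K) ≤
          c0 * wdist G ℓ x y := by
      intro Q hQ
      rw [Finset.mem_powerset] at hQ
      have e4 : ∑ i ∈ Finset.univ.filter (fun i => R i K = Q), w i * F (R i K) =
          (∑ i ∈ Finset.univ.filter (fun i => R i K = Q), w i) * F Q := by
        rw [Finset.sum_mul]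
        refine Finset.sum_congr rfl fun i hi => ?_
        rw [(Finset.mem_filter.1 hi).2]
      rw [e4]
      have hFQ : F Q = |H K Q hQ x - H K Q hQ y| := by simp only [hF, dif_pos hQ]
      rw [hFQ]
      have hdn := hnn x y
      rcases hHl K Q hQ with hcon | ⟨a, ha, b, hb, hbQ, hlip⟩
      · rw [hcon x hx y hy, sub_self, abs_zero, mul_zero]
        positivity
      · have haS := hQ ha
        have haV : a ∈ V0 := ((hmemS K a).1 haS).1
        have hbV : b ∈ V0 := ((hmemS K b).1 hb).1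
        have hab : G.Reachable a b := hPP K a (hSP K a haS) b (hSP K b hb)
        have hne : a ≠ b := fun h => hbQ (h ▸ ha)
        have hdab := wdist_pos hMET hMIN V G ℓ hℓ a b hab hne
        have hW : ∑ i ∈ Finset.univ.filter (fun i => R i K = Q), w i ≤ Γ a b := by
          calc ∑ i ∈ Finset.univ.filter (fun i => R i K = Q), w i
              = ∑ i ∈ Finset.univ.filter (fun i => R i K = Q), w i * |h i a - h i b| := by
                refine Finset.sum_congr rfl fun i hi => ?_
                have hRi := (Finset.mem_filter.1 hi).2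
                have h1 : h i a = 1 := by
                  simp only [hh, dif_pos haV]
                  apply ind_mem
                  have : a ∈ R i K := hRi ▸ ha
                  simp only [hR, Finset.mem_filter] at this
                  exact this.2.2
                have h2 : h i b = 0 := by
                  simp only [hh, dif_pos hbV]
                  apply ind_not_mem
                  intro hbT
                  have : b ∈ R i K := by
                    simp only [hR, Finset.mem_filter]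
                    exact ⟨hb, hbV, hbT⟩
                  rw [hRi] at this
                  exact hbQ this
                rw [h1, h2]; norm_num
            _ ≤ Γ a b := Finset.sum_le_sum_of_subset_of_nonneg (Finset.filter_subset _ _)
                fun i _ _ => mul_nonneg (hw i) (abs_nonneg _)
        have hW2 : ∑ i ∈ Finset.univ.filter (fun i => R i K = Q), w i ≤ c0 * wdist G ℓ a b := by
          refine hW.trans ?_
          rw [hΓ0 a b haV hbV]
          exact (hf ⟨a, haV⟩ ⟨b, hbV⟩ hab).2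
        calc (∑ i ∈ Finset.univ.filter (fun i => R i K = Q), w i) * |H K Q hQ x - H K Q hQ y|
            ≤ (c0 * wdist G ℓ a b) * (wdist G ℓ x y / wdist G ℓ a b) :=
              mul_le_mul hW2 (hlip x hx y hy) (abs_nonneg _) (by positivity)
          _ = c0 * wdist G ℓ x y := by field_simp
    calc _ ≤ ∑ Q ∈ (attach G V0 K).powerset, c0 * wdist G ℓ x y := Finset.sum_le_sum e3
      _ = 2 ^ (attach G V0 K).card * (c0 * wdist G ℓ x y) := by
          rw [Finset.sum_const, Finset.card_powerset, nsmul_eq_mul]; push_cast; rfl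
      _ ≤ 2 ^ k * (c0 * wdist G ℓ x y) := by
          apply mul_le_mul_of_nonneg_right _ (mul_nonneg (by linarith) (hnn x y))
          exact pow_le_pow_right₀ (by norm_num) (hatt K)
      _ = 2 ^ k * c0 * wdist G ℓ x y := by ring
  -- one edge
  have hout : ∀ (u : V) (hu : u ∉ V0) (i : ι),
      h i u = H ((G.induce {x | x ∉ V0}).connectedComponentMk ⟨u, hu⟩) (R i _) (hRS i _) u := by
    intro u hu i
    simp only [hh, dif_neg hu]
  have hedge' : ∀ u v, G.Adj u v → u ∉ V0 → Γ u v ≤ 2 ^ k * c0 * wdist G ℓ u v := by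
    intro u v huv hu
    set K := (G.induce {x | x ∉ V0}).connectedComponentMk ⟨u, hu⟩ with hK
    have huP : u ∈ P K := ⟨⟨u, hu⟩, rfl, SimpleGraph.Reachable.refl _⟩
    have hvP : v ∈ P K := ⟨⟨u, hu⟩, rfl, huv.reachable⟩
    refine hpiece K u huP v hvP (fun i => hout u hu i) ?_
    intro i
    by_cases hv : v ∈ V0
    · have hvS : v ∈ attach G V0 K := (hmemS K v).2 ⟨hv, ⟨u, hu⟩, rfl, huv⟩
      by_cases hT : (⟨v, hv⟩ : V0) ∈ T i
      · have hvR : v ∈ R i K := by
          simp only [hR, Finset.mem_filter]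
          exact ⟨hvS, hv, hT⟩
        rw [hH1 K (R i K) (hRS i K) v hvR]
        simp only [hh, dif_pos hv]
        exact ind_mem hT
      · have hvR : v ∉ R i K := by
          simp only [hR, Finset.mem_filter]
          rintro ⟨_, _, h⟩
          exact hT h
        rw [hH0 K (R i K) (hRS i K) v hvS hvR]
        simp only [hh, dif_pos hv]
        exact ind_not_mem hT
    · have hKv : (G.induce {x | x ∉ V0}).connectedComponentMk ⟨v, hv⟩ = K := by
        rw [hK]
        apply SimpleGraph.ConnectedComponent.eq.2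
        have : (G.induce {x | x ∉ V0}).Adj ⟨v, hv⟩ ⟨u, hu⟩ := huv.symm
        exact this.reachable
      rw [hout v hv i]
      congr 1 <;> rw [hKv]
  have hedge : ∀ u v, G.Adj u v → Γ u v ≤ 2 ^ k * c0 * wdist G ℓ u v := by
    intro u v huv
    by_cases hu : u ∈ V0
    · by_cases hv : v ∈ V0
      · rw [hΓ0 u v hu hv]
        refine (hf ⟨u, hu⟩ ⟨v, hv⟩ huv.reachable).2.trans ?_
        apply mul_le_mul_of_nonneg_right _ (hnn u v)
        nlinarith
      · rw [hΓ1.symm u v, hsymm u v]
        exact hedge' v u huv.symm hv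
    · exact hedge' u v huv hu
  have hwalk : ∀ (x y : V) (p : G.Walk x y), Γ x y ≤ 2 ^ k * c0 * wlen ℓ p := by
    intro x y p
    induction p with
    | @nil a =>
      have : Γ a a = 0 := by
        simp only [hΓ, sub_self, abs_zero, mul_zero, Finset.sum_const_zero]
      rw [this]
      simp [wlen]
    | @cons a b c' hadj q ih =>
      rw [wlen_cons, mul_add]
      have h1 := hΓ1.triangle a b c'
      have h2 := hedge a b hadj
      have h3 : wdist G ℓ a b ≤ ℓ s(a, b) := by
        have := (hwl a b (SimpleGraph.Walk.cons hadj SimpleGraph.Walk.nil)).2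
        rw [wlen_cons] at this
        simpa [wlen] using this
      have h4 := mul_le_mul_of_nonneg_left h3 hL0.le
      linarith
  refine hCLOSE V G ℓ V0 c (2 ^ k * c0) Γ hℓ hc hL0.le hΓ1 ?_ ?_ hH
  · intro x y hxy
    have h1 : Γ x y / (2 ^ k * c0) ≤ wdist G ℓ x y := by
      apply hinf x y _ hxy
      intro p
      rw [div_le_iff₀ hL0]
      have := hwalk x y p
      linarith [mul_comm (2 ^ k * c0) (wlen ℓ p)]
    rw [div_le_iff₀ hL0] at h1
    linarith [mul_comm (2 ^ k * c0) (wdist G ℓ x y)]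
  · intro a ha b hb hab
    rw [hΓ0 a b ha hb]
    exact (hf ⟨a, ha⟩ ⟨b, hb⟩ hab).1

end Vale.Agent.P235A
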