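import Vale.Agent.P235A.Base

/-!
# P235A, module SUM: 1-sums
-/

set_option autoImplicit false

namespace Vale.Agent.P235A

open MeasureTheory

universe u

namespace SumX

variable {V : Type u}

/-- the retraction to `S`, everything outside goes to `x` -/
noncomputable def ret (S : Set V) (x : V) (hx : x ∈ S) (w : V) : S := by
  classical exact if h : w ∈ S then ⟨w, h⟩ else ⟨x, hx⟩

theorem ret_mem {S : Set V} {x : V} (hx : x ∈ S) {w : V} (h : w ∈ S) :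
    ret S x hx w = ⟨w, h⟩ := by
  unfold ret
  rw [dif_pos h]

theorem ret_not {S : Set V} {x : V} (hx : x ∈ S) {w : V} (h : w ∉ S) :
    ret S x hx w = ⟨x, hx⟩ := by
  unfold ret
  rw [dif_neg h]

/-- if `w` is on the other side then it goes to `x` -/
theorem ret_other {S T : Set V} {x : V} (hST : S ∩ T = {x}) (hx : x ∈ S) {w : V} (h : w ∈ T) :
    ret S x hx w = ⟨x, hx⟩ := by
  by_cases hw : w ∈ S
  · have : w ∈ S ∩ T := ⟨hw, h⟩
    rw [hST, Set.mem_singleton_iff] at this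
    subst this
    exact ret_mem hx hw
  · exact ret_not hx hw

theorem wlen_copy {G : SimpleGraph V} (ℓ : Sym2 V → ℝ) {a b a' b' : V} (w : G.Walk a b)
    (ha : a = a') (hb : b = b') : wlen ℓ (w.copy ha hb) = wlen ℓ w := by
  subst ha
  subst hb
  rfl

theorem wlen_cons {G : SimpleGraph V} (ℓ : Sym2 V → ℝ) {a b c : V} (h : G.Adj a b)
    (w : G.Walk b c) : wlen ℓ (SimpleGraph.Walk.cons h w) = ℓ s(a, b) + wlen ℓ w := by
  simp [wlen]

theorem proj (G : SimpleGraph V) (ℓ : Sym2 V → ℝ) (V1 V2 : Set V) (x : V) (hx1 : x ∈ V1)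
    (hx2 : x ∈ V2) (h12 : V1 ∩ V2 = {x})
    (hG : ∀ u v, G.Adj u v → (u ∈ V1 ∧ v ∈ V1) ∨ (u ∈ V2 ∧ v ∈ V2)) {a b : V} (w : G.Walk a b) :
    ∃ (w1 : (G.induce V1).Walk (ret V1 x hx1 a) (ret V1 x hx1 b))
      (w2 : (G.induce V2).Walk (ret V2 x hx2 a) (ret V2 x hx2 b)),
      wlen (resLen V1 ℓ) w1 + wlen (resLen V2 ℓ) w2 = wlen ℓ w := by
  have h21 : V2 ∩ V1 = {x} := by rw [Set.inter_comm]; exact h12
  induction w with
  | nil => exact ⟨SimpleGraph.Walk.nil, SimpleGraph.Walk.nil, by simp [wlen]⟩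
  | @cons a a' b h p ih =>
    obtain ⟨p1, p2, hp⟩ := ih
    rcases hG a a' h with ⟨ha, ha'⟩ | ⟨ha, ha'⟩
    · have hadj : (G.induce V1).Adj (ret V1 x hx1 a) (ret V1 x hx1 a') := by
        rw [ret_mem hx1 ha, ret_mem hx1 ha']
        exact h
      have he : ret V2 x hx2 a' = ret V2 x hx2 a := by
        rw [ret_other h21 hx2 ha, ret_other h21 hx2 ha']
      refine ⟨SimpleGraph.Walk.cons hadj p1, p2.copy he rfl, ?_⟩
      rw [wlen_copy, wlen_cons, wlen_cons, ← hp]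
      have hl : resLen V1 ℓ s(ret V1 x hx1 a, ret V1 x hx1 a') = ℓ s(a, a') := by
        rw [ret_mem hx1 ha, ret_mem hx1 ha']
        rfl
      rw [hl]
      ring
    · have hadj : (G.induce V2).Adj (ret V2 x hx2 a) (ret V2 x hx2 a') := by
        rw [ret_mem hx2 ha, ret_mem hx2 ha']
        exact h
      have he : ret V1 x hx1 a' = ret V1 x hx1 a := by
        rw [ret_other h12 hx1 ha, ret_other h12 hx1 ha']
      refine ⟨p1.copy he rfl, SimpleGraph.Walk.cons hadj p2, ?_⟩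
      rw [wlen_copy, wlen_cons, wlen_cons, ← hp]
      have hl : resLen V2 ℓ s(ret V2 x hx2 a, ret V2 x hx2 a') = ℓ s(a, a') := by
        rw [ret_mem hx2 ha, ret_mem hx2 ha']
        rfl
      rw [hl]
      ring

theorem pos_res (G : SimpleGraph V) (ℓ : Sym2 V → ℝ) (hℓ : ∀ e ∈ G.edgeSet, 0 < ℓ e)
    (S : Set V) : ∀ e ∈ (G.induce S).edgeSet, 0 < resLen S ℓ e := by
  intro e
  induction e using Sym2.ind with
  | _ a b =>
    intro he
    exact hℓ s((a : V), (b : V)) he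

end SumX

open SumX in
theorem sum1 (hcut : S_CUT.{u}) (hreal : S_REAL.{u}) (hmet : S_METRIC.{u}) (hdel : S_DEL.{u}) :
    S_SUM.{u} := by
  intro V _ G V1 V2 x c hc hU h12 hG H1 H2 ℓ hℓ
  have hx : x ∈ V1 ∩ V2 := by rw [h12]; exact rfl
  have hx1 : x ∈ V1 := hx.1
  have hx2 : x ∈ V2 := hx.2
  have h21 : V2 ∩ V1 = {x} := by rw [Set.inter_comm]; exact h12
  obtain ⟨Ω1, m1, μ1, f1, hf1⟩ := H1 (resLen V1 ℓ) (pos_res G ℓ hℓ V1)
  obtain ⟨Ω2, m2, μ2, f2, hf2⟩ := H2 (resLen V2 ℓ) (pos_res G ℓ hℓ V2)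
  have c1 := hcut V Ω1 m1 μ1 (fun w => f1 (ret V1 x hx1 w))
  have c2 := hcut V Ω2 m2 μ2 (fun w => f2 (ret V2 x hx2 w))
  obtain ⟨Ω, m, μ, F, hF⟩ := hreal V _ (c1.add c2).isL1
  refine ⟨Ω, m, μ, F, ?_⟩
  intro a b hab
  rw [hF a b]
  obtain ⟨-, hnn, hself, hsymm, htri, hinf⟩ := hmet V G ℓ hℓ
  obtain ⟨hw1, hnn1, hself1, -, -, -⟩ := hmet V1 (G.induce V1) (resLen V1 ℓ) (pos_res G ℓ hℓ V1)
  obtain ⟨hw2, hnn2, hself2, -, -, -⟩ := hmet V2 (G.induce V2) (resLen V2 ℓ) (pos_res G ℓ hℓ V2)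
  obtain ⟨w0⟩ := id hab
  obtain ⟨q1, q2, -⟩ := proj G ℓ V1 V2 x hx1 hx2 h12 hG w0
  have r1 : (G.induce V1).Reachable (ret V1 x hx1 a) (ret V1 x hx1 b) := ⟨q1⟩
  have r2 : (G.induce V2).Reachable (ret V2 x hx2 a) (ret V2 x hx2 b) := ⟨q2⟩
  have e1 := hf1 _ _ r1
  have e2 := hf2 _ _ r2
  have hle : wdist (G.induce V1) (resLen V1 ℓ) (ret V1 x hx1 a) (ret V1 x hx1 b) +
      wdist (G.induce V2) (resLen V2 ℓ) (ret V2 x hx2 a) (ret V2 x hx2 b) ≤ wdist G ℓ a b := by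
    refine hinf a b _ hab fun w => ?_
    obtain ⟨p1, p2, hp⟩ := proj G ℓ V1 V2 x hx1 hx2 h12 hG w
    rw [← hp]
    exact add_le_add (hw1 _ _ p1).2 (hw2 _ _ p2).2
  have hge : wdist G ℓ a b ≤
      wdist (G.induce V1) (resLen V1 ℓ) (ret V1 x hx1 a) (ret V1 x hx1 b) +
      wdist (G.induce V2) (resLen V2 ℓ) (ret V2 x hx2 a) (ret V2 x hx2 b) := by
    have ha : a ∈ V1 ∪ V2 := by rw [hU]; trivial
    have hb : b ∈ V1 ∪ V2 := by rw [hU]; trivial
    have d1 := (hdel V G ℓ V1 hℓ).1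
    have d2 := (hdel V G ℓ V2 hℓ).1
    rcases ha with ha | ha <;> rcases hb with hb | hb
    · have h1 := (d1 _ _ r1).2
      rw [ret_mem hx1 ha, ret_mem hx1 hb] at h1 ⊢
      have h2 := hnn2 (ret V2 x hx2 a) (ret V2 x hx2 b)
      linarith
    · have g1 := d1 _ _ r1
      have g2 := d2 _ _ r2
      rw [ret_mem hx1 ha, ret_other h12 hx1 hb] at g1
      rw [ret_other h21 hx2 ha, ret_mem hx2 hb] at g2
      rw [ret_mem hx1 ha, ret_other h12 hx1 hb, ret_other h21 hx2 ha, ret_mem hx2 hb]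
      have h3 := htri a x b g1.1 g2.1
      linarith [g1.2, g2.2]
    · have g1 := d1 _ _ r1
      have g2 := d2 _ _ r2
      rw [ret_other h12 hx1 ha, ret_mem hx1 hb] at g1
      rw [ret_mem hx2 ha, ret_other h21 hx2 hb] at g2
      rw [ret_other h12 hx1 ha, ret_mem hx1 hb, ret_mem hx2 ha, ret_other h21 hx2 hb]
      have h3 := htri a x b g2.1 g1.1
      linarith [g1.2, g2.2]
    · have h1 := (d2 _ _ r2).2
      rw [ret_mem hx2 ha, ret_mem hx2 hb] at h1 ⊢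
      have h2 := hnn1 (ret V1 x hx1 a) (ret V1 x hx1 b)
      linarith
  constructor
  · exact hge.trans (add_le_add e1.1 e2.1)
  · calc ‖f1 (ret V1 x hx1 a) - f1 (ret V1 x hx1 b)‖ + ‖f2 (ret V2 x hx2 a) - f2 (ret V2 x hx2 b)‖
        ≤ c * wdist (G.induce V1) (resLen V1 ℓ) (ret V1 x hx1 a) (ret V1 x hx1 b) +
          c * wdist (G.induce V2) (resLen V2 ℓ) (ret V2 x hx2 a) (ret V2 x hx2 b) :=
          add_le_add e1.2 e2.2
      _ = c * (wdist (G.induce V1) (resLen V1 ℓ) (ret V1 x hx1 a) (ret V1 x hx1 b) +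
          wdist (G.induce V2) (resLen V2 ℓ) (ret V2 x hx2 a) (ret V2 x hx2 b)) := by ring
      _ ≤ c * wdist G ℓ a b := mul_le_mul_of_nonneg_left hle (by linarith)

end Vale.Agent.P235A
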