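import Vale.Agent.P235A.Base

/-!
# P235 (apex closure): module TREE
Forests embed isometrically in `L_1`: sum over the edges `e` of the cut `G - e`.
-/

namespace Vale.Agent.P235A

universe u

namespace TreeAux

open SimpleGraph

variable {V : Type u}

/-- the side of the edge `e` -/
def side (G : SimpleGraph V) (e : Sym2 V) : Set V :=
  {z | (G.deleteEdges {e}).Reachable (Quot.out e).1 z}

theorem ind_eq_of_reach (G : SimpleGraph V) (e : Sym2 V) {x y : V}
    (h : (G.deleteEdges {e}).Reachable x y) : ind (side G e) x = ind (side G e) y := by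
  by_cases hx : x ∈ side G e
  · have hy : y ∈ side G e := Reachable.trans hx h
    rw [ind_mem hx, ind_mem hy]
  · have hy : y ∉ side G e := fun hy => hx (Reachable.trans hy h.symm)
    rw [ind_not_mem hx, ind_not_mem hy]

theorem ind_adj_other (G : SimpleGraph V) (e : Sym2 V) {x y : V} (h : G.Adj x y)
    (hne : s(x, y) ≠ e) : ind (side G e) x = ind (side G e) y := by
  apply ind_eq_of_reach
  apply Adj.reachable
  rw [deleteEdges_adj]
  exact ⟨h, fun hm => hne (Set.mem_singleton_iff.1 hm)⟩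

theorem ind_bridge (G : SimpleGraph V) {x y : V}
    (hb : ¬ (G.deleteEdges {s(x, y)}).Reachable x y) :
    |ind (side G s(x, y)) x - ind (side G s(x, y)) y| = 1 := by
  have hout : (Quot.out s(x, y)).1 = x ∨ (Quot.out s(x, y)).1 = y := by
    have h1 : Sym2.mk (Quot.out s(x, y)).1 (Quot.out s(x, y)).2 = s(x, y) := Quot.out_eq s(x, y)
    rw [Sym2.eq_iff] at h1
    rcases h1 with h1 | h1
    · exact Or.inl h1.1
    · exact Or.inr h1.1
  rcases hout with h | h
  · have hx : x ∈ side G s(x, y) := by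
      change (G.deleteEdges {s(x, y)}).Reachable (Quot.out s(x, y)).1 x
      rw [h]
    have hy : y ∉ side G s(x, y) := by
      intro hy
      change (G.deleteEdges {s(x, y)}).Reachable (Quot.out s(x, y)).1 y at hy
      rw [h] at hy
      exact hb hy
    rw [ind_mem hx, ind_not_mem hy]; norm_num
  · have hy : y ∈ side G s(x, y) := by
      change (G.deleteEdges {s(x, y)}).Reachable (Quot.out s(x, y)).1 y
      rw [h]
    have hx : x ∉ side G s(x, y) := by
      intro hx
      change (G.deleteEdges {s(x, y)}).Reachable (Quot.out s(x, y)).1 x at hx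
      rw [h] at hx
      exact hb hx.symm
    rw [ind_not_mem hx, ind_mem hy]; norm_num

theorem abs_ind_le (S : Set V) (x y : V) : |ind S x - ind S y| ≤ 1 := by
  by_cases hx : x ∈ S <;> by_cases hy : y ∈ S
  · rw [ind_mem hx, ind_mem hy]; norm_num
  · rw [ind_mem hx, ind_not_mem hy]; norm_num
  · rw [ind_not_mem hx, ind_mem hy]; norm_num
  · rw [ind_not_mem hx, ind_not_mem hy]; norm_num

open Classical in
/-- the cut sum -/
noncomputable def cutE [Fintype V] (G : SimpleGraph V) (ℓ : Sym2 V → ℝ) (x y : V) : ℝ :=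
  ∑ e : Sym2 V, (if e ∈ G.edgeSet then ℓ e else 0) * |ind (side G e) x - ind (side G e) y|

theorem cutE_tri [Fintype V] (G : SimpleGraph V) (ℓ : Sym2 V → ℝ)
    (hℓ : ∀ e ∈ G.edgeSet, 0 < ℓ e) (x y z : V) :
    cutE G ℓ x z ≤ cutE G ℓ x y + cutE G ℓ y z := by
  unfold cutE
  rw [← Finset.sum_add_distrib]
  refine Finset.sum_le_sum fun e _ => ?_
  rw [← mul_add]
  refine mul_le_mul_of_nonneg_left (abs_sub_le _ _ _) ?_
  split_ifs with he
  · exact (hℓ e he).le
  · exact le_rfl

theorem cutE_adj_le [Fintype V] (G : SimpleGraph V) (ℓ : Sym2 V → ℝ)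
    (hℓ : ∀ e ∈ G.edgeSet, 0 < ℓ e) {x y : V} (h : G.Adj x y) :
    cutE G ℓ x y ≤ ℓ s(x, y) := by
  classical
  unfold cutE
  rw [Finset.sum_eq_single s(x, y)]
  · have h1 : s(x, y) ∈ G.edgeSet := h
    rw [if_pos h1]
    have := mul_le_mul_of_nonneg_left (abs_ind_le (side G s(x, y)) x y) (hℓ _ h1).le
    linarith
  · intro e _ hne
    rw [ind_adj_other G e h (Ne.symm hne)]
    simp
  · intro h; exact absurd (Finset.mem_univ _) h

theorem wlen_cons {G : SimpleGraph V} (ℓ : Sym2 V → ℝ) {x y z : V} (h : G.Adj x y)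
    (w : G.Walk y z) : wlen ℓ (Walk.cons h w) = ℓ s(x, y) + wlen ℓ w := by
  unfold wlen
  rw [Walk.edges_cons, List.map_cons, List.sum_cons]

theorem wlen_nil {G : SimpleGraph V} (ℓ : Sym2 V → ℝ) {x : V} :
    wlen ℓ (Walk.nil : G.Walk x x) = 0 := by
  unfold wlen
  simp

theorem cutE_self [Fintype V] (G : SimpleGraph V) (ℓ : Sym2 V → ℝ) (x : V) :
    cutE G ℓ x x = 0 := by
  unfold cutE
  simp

theorem cutE_le_wlen [Fintype V] (G : SimpleGraph V) (ℓ : Sym2 V → ℝ)
    (hℓ : ∀ e ∈ G.edgeSet, 0 < ℓ e) {x y : V} (w : G.Walk x y) : cutE G ℓ x y ≤ wlen ℓ w := by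
  induction w with
  | nil => rw [cutE_self, wlen_nil]
  | cons h w ih =>
    rw [wlen_cons]
    have h1 := cutE_tri G ℓ hℓ _ _ _ |>.trans (add_le_add (cutE_adj_le G ℓ hℓ h) ih)
    exact h1

theorem cutE_eq_wlen [Fintype V] (G : SimpleGraph V) (ℓ : Sym2 V → ℝ)
    (hG : G.IsAcyclic) {x y : V} (w : G.Walk x y) (hw : w.IsPath) :
    wlen ℓ w ≤ cutE G ℓ x y := by
  classical
  induction w with
  | nil => rw [cutE_self, wlen_nil]
  | @cons x u y h q ih =>
    rw [Walk.cons_isPath_iff] at hw
    have hq := ih hw.1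
    rw [wlen_cons]
    have hb : ¬ (G.deleteEdges {s(x, u)}).Reachable x u :=
      (isAcyclic_iff_forall_adj_isBridge.1 hG) h
    have hnot : s(x, u) ∉ q.edges := fun hm => hw.2 (q.fst_mem_support_of_mem_edges hm)
    have hreach : (G.deleteEdges {s(x, u)}).Reachable u y := by
      by_contra hc
      exact hnot (q.mem_edges_of_not_reachable_deleteEdges hc)
    have hmem : s(x, u) ∈ G.edgeSet := h
    have key : cutE G ℓ x y = ℓ s(x, u) + cutE G ℓ u y := by
      unfold cutE
      rw [← Finset.add_sum_erase Finset.univ _ (Finset.mem_univ s(x, u)),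
        ← Finset.add_sum_erase Finset.univ (fun e => (if e ∈ G.edgeSet then ℓ e else 0) *
          |ind (side G e) u - ind (side G e) y|) (Finset.mem_univ s(x, u))]
      rw [if_pos hmem, ← ind_eq_of_reach G s(x, u) hreach, ind_bridge G hb, sub_self, abs_zero,
        mul_zero, mul_one, zero_add]
      congr 1
      refine Finset.sum_congr rfl fun e he => ?_
      have hne : s(x, u) ≠ e := fun h' => (Finset.mem_erase.1 he).1 h'.symm
      rw [ind_adj_other G e h hne]
    rw [key]
    linarith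

end TreeAux

open TreeAux in
theorem tree : S_REAL.{u} → S_METRIC.{u} → S_TREE.{u} := by
  intro hreal hmet V _ G hG ℓ hℓ
  classical
  have hcut : CutSum V (cutE G ℓ) := by
    refine ⟨Sym2 V, inferInstance, fun e => if e ∈ G.edgeSet then ℓ e else 0, side G, ?_, ?_⟩
    · intro e
      dsimp only
      split_ifs with he
      · exact (hℓ e he).le
      · exact le_rfl
    · intro x y
      unfold cutE
      refine Finset.sum_congr ?_ fun e _ => ?_
      · ext; simp
      · congr
  obtain ⟨Ω, mΩ, μ, f, hf⟩ := hreal V _ hcut.isL1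
  refine ⟨Ω, mΩ, μ, f, fun x y hxy => ?_⟩
  rw [hf x y]
  obtain ⟨h1, -, -, -, -, h6⟩ := hmet V G ℓ hℓ
  refine ⟨?_, ?_⟩
  · obtain ⟨p, hp⟩ := hxy.exists_isPath
    exact ((h1 x y p).2).trans (cutE_eq_wlen G ℓ hG p hp)
  · rw [one_mul]
    exact h6 x y _ hxy fun w => cutE_le_wlen G ℓ hℓ w

end Vale.Agent.P235A
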